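import Vale.Agent.P230.Grid

/-! Volumes of caps of the unit ball and of their grid versions. -/

namespace Vale.Agent.P230

open Finset MeasureTheory Metric
open scoped RealInnerProductSpace Pointwise

variable {n : ℕ}

/-- A cap of the unit ball. -/
def cap (e : E n) (b : ℝ) : Set (E n) := {u | ‖u‖ ≤ 1 ∧ b ≤ ⟪e, u⟫}

theorem vol_ne_top_of_norm_le {S : Set (E n)} {r : ℝ} (h : ∀ u ∈ S, ‖u‖ ≤ r) : volume S ≠ ⊤ :=
  ne_top_of_le_ne_top (measure_closedBall_lt_top (x := (0 : E n)) (r := r)).ne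
    (measure_mono fun u hu => mem_closedBall_zero_iff.2 (h u hu))

theorem cap_ne_top (e : E n) (b : ℝ) : volume (cap e b) ≠ ⊤ :=
  vol_ne_top_of_norm_le fun _ hu => hu.1

theorem cap_meas (e : E n) (b : ℝ) : MeasurableSet (cap e b) := by
  have h1 : IsClosed {u : E n | ‖u‖ ≤ 1} := isClosed_le continuous_norm continuous_const
  have h2 : IsClosed {u : E n | b ≤ ⟪e, u⟫} := isClosed_le continuous_const (by fun_prop)
  exact (h1.inter h2).measurableSet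

theorem cap_eq {e e' : E n} (h : ‖e‖ = ‖e'‖) (b : ℝ) :
    volume.real (cap e b) = volume.real (cap e' b) := by
  set R : E n ≃ₗᵢ[ℝ] E n := Submodule.reflection (ℝ ∙ (e - e'))ᗮ with hR
  have h1 : R e = e' := Submodule.reflection_sub h
  have h2 : cap e b = R ⁻¹' cap e' b := by
    ext u
    simp only [cap, Set.mem_ofPred_eq, Set.mem_preimage, LinearIsometryEquiv.norm_map]
    rw [← h1, LinearIsometryEquiv.inner_map_map]
  rw [h2, Measure.real, R.measurePreserving.measure_preimage (cap_meas e' b).nullMeasurableSet]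
  rfl

theorem hom_le {l : ℝ} (hl : 0 ≤ l) (v : E n) (A B : Set (E n)) (hB : volume B ≠ ⊤)
    (h : ∀ u ∈ A, l • u + v ∈ B) : l ^ n * volume.real A ≤ volume.real B := by
  have h1 : v +ᵥ l • A ⊆ B := by
    rintro _ ⟨_, ⟨u, hu, rfl⟩, rfl⟩
    have := h u hu
    rwa [add_comm] at this
  have h2 := measureReal_mono h1 hB
  rwa [Measure.real, measure_vadd, Measure.addHaar_smul_of_nonneg volume hl,
    finrank_euclideanSpace_fin, ENNReal.toReal_mul, ENNReal.toReal_ofReal (by positivity)] at h2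

theorem norm_comb_le {l k : ℝ} (hl : 0 ≤ l) (hk : 0 ≤ k) {u e : E n} (hu : ‖u‖ ≤ 1)
    (he : ‖e‖ = 1) : ‖l • u + k • e‖ ≤ l + k := by
  refine (norm_add_le _ _).trans ?_
  rw [norm_smul, norm_smul, Real.norm_of_nonneg hl, Real.norm_of_nonneg hk, he]
  nlinarith

theorem inner_comb (l k : ℝ) (u : E n) {e : E n} (he : ‖e‖ = 1) :
    ⟪e, l • u + k • e⟫ = l * ⟪e, u⟫ + k := by
  rw [inner_add_right, real_inner_smul_right, real_inner_smul_right, real_inner_self_eq_norm_sq,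
    he]
  ring

theorem cap_vol_lower {h : ℝ} (h0 : 0 ≤ h) (h1 : h ≤ 1) {e : E n} (he : ‖e‖ = 1) :
    (h / 2) ^ n * om n ≤ volume.real (cap e (1 - h)) := by
  refine hom_le (by positivity) ((1 - h / 2) • e) _ _ (cap_ne_top _ _) fun u hu => ?_
  rw [mem_closedBall_zero_iff] at hu
  refine ⟨(norm_comb_le (by positivity) (by linarith) hu he).trans (by linarith), ?_⟩
  rw [inner_comb _ _ _ he]
  have := abs_real_inner_le_norm e u
  rw [he, abs_le] at this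
  nlinarith

theorem exists_dir {Y : E n} (hY : Y ≠ 0) : ∃ e : E n, ‖e‖ = 1 ∧ Y = ‖Y‖ • e := by
  have h : ‖Y‖ ≠ 0 := norm_ne_zero_iff.2 hY
  refine ⟨‖Y‖⁻¹ • Y, ?_, ?_⟩
  · rw [norm_smul, norm_inv, norm_norm, inv_mul_cancel₀ h]
  · rw [smul_smul, mul_inv_cancel₀ h, one_smul]

theorem cap_small {b V : ℝ} (hb : 0 < b) (hV0 : 0 ≤ V)
    (hV : ∀ e : E n, ‖e‖ = 1 → volume.real (cap e b) = V) {v : E n} (hv : ‖v‖ ≤ 1) :
    volume.real (cap v b) ≤ V := by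
  by_cases h0 : v = 0
  · have : cap v b = ∅ := by
      ext u
      simp only [cap, h0, inner_zero_left, Set.mem_ofPred_eq, Set.mem_empty_iff_false, iff_false,
        not_and, not_le]
      exact fun _ => hb
    rw [this]; simpa using hV0
  · obtain ⟨e, he, hY⟩ := exists_dir h0
    rw [← hV e he]
    refine measureReal_mono (fun u hu => ⟨hu.1, ?_⟩) (cap_ne_top _ _)
    have h2 := hu.2
    rw [hY, real_inner_smul_left] at h2
    have h3 : 0 ≤ ‖v‖ := norm_nonneg v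
    by_contra hc
    push Not at hc
    by_cases h4 : 0 ≤ ⟪e, u⟫
    · nlinarith
    · push Not at h4
      nlinarith

open Classical in
/-- Grid points of the unit ball with inner product with `Y` above `c`. -/
noncomputable def gcap (a c : ℝ) (Y : E n) : Finset (Γ n) :=
  (gb n a 1).filter fun u => c < ⟪Y, emb a u⟫

theorem mem_gcap {a c : ℝ} (ha : 0 < a) {Y : E n} {u : Γ n} :
    u ∈ gcap a c Y ↔ ‖emb a u‖ ≤ 1 ∧ c < ⟪Y, emb a u⟫ := by
  classical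
  unfold gcap
  rw [mem_filter, mem_gb ha]

theorem gcap_subset (a c : ℝ) (Y : E n) : gcap a c Y ⊆ gb n a 1 := by
  classical
  exact filter_subset _ _

theorem inner_close (Y u w : E n) {δ r : ℝ} (h : ‖u - w‖ ≤ δ) (hY : ‖Y‖ ≤ r) :
    |⟪Y, u⟫ - ⟪Y, w⟫| ≤ r * δ := by
  rw [← inner_sub_right]
  refine (abs_real_inner_le_norm _ _).trans ?_
  exact mul_le_mul hY h (norm_nonneg _) ((norm_nonneg _).trans hY)

theorem gcap_lower {a h V s γ : ℝ} (ha : 0 < a) (h0 : 0 < h) (h1 : h ≤ 1 / 2)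
    (hV : ∀ e : E n, ‖e‖ = 1 → volume.real (cap e (1 - h)) = V) {Y : E n}
    (hY : ‖Y‖ ≤ 2) (hs : 1 - s ≤ ‖Y‖) (hδ : a * n ≤ s) (hγ : γ * h = 6 * s) (hγ1 : γ ≤ 1 / 2) :
    (1 - γ) ^ n * V ≤ (gcap a (1 - h + a * n) Y).card * a ^ n := by
  set δ := a * n with hδd
  have hδ0 : 0 ≤ δ := by positivity
  have hs0 : 0 ≤ s := hδ0.trans hδ
  have hγ0 : 0 ≤ γ := by
    by_contra hc
    push Not at hc
    nlinarith
  have hγs : 12 * s ≤ γ := by nlinarith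
  have hY0 : Y ≠ 0 := by
    intro h
    rw [h, norm_zero] at hs
    linarith
  obtain ⟨e, he, hYe⟩ := exists_dir hY0
  set S : Set (E n) := {u | ‖u‖ ≤ 1 - δ ∧ 1 - h + 4 * δ ≤ ⟪Y, u⟫} with hS
  have s1 : (1 - γ) ^ n * volume.real (cap e (1 - h)) ≤ volume.real S := by
    refine hom_le (by linarith) ((γ - δ) • e) _ _ (vol_ne_top_of_norm_le fun u hu => hu.1)
      fun u hu => ⟨?_, ?_⟩
    · exact (norm_comb_le (by linarith) (by linarith) hu.1 he).trans (by linarith)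
    · rw [hYe, real_inner_smul_left, inner_comb _ _ _ he]
      have h2 := hu.2
      have h3 : 1 - δ - (1 - γ) * h ≤ (1 - γ) * ⟪e, u⟫ + (γ - δ) := by nlinarith
      have h4 : 0 ≤ 1 - δ - (1 - γ) * h := by nlinarith
      have h5 : 1 - δ - (1 - γ) * h ≤ 1 := by nlinarith
      have h6 := mul_le_mul hs h3 h4 (norm_nonneg Y)
      nlinarith
  rw [hV e he] at s1
  refine s1.trans (le_count ha _ _ fun y hy g hg => ?_)
  rw [mem_gcap ha]
  have h2 := norm_sub_norm_le (emb a g) y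
  have h3 := inner_close Y _ _ hg hY
  rw [abs_le] at h3
  by_cases hn : δ = 0
  · have : n = 0 := by
      have : (n : ℝ) = 0 := by
        rcases mul_eq_zero.1 hn with h | h
        · exact absurd h ha.ne'
        · exact h
      exact_mod_cast this
    subst this
    exact absurd (Subsingleton.elim _ _) hY0
  · have : 0 < δ := lt_of_le_of_ne hδ0 (Ne.symm hn)
    exact ⟨by linarith [hy.1], by linarith [hy.2]⟩

theorem norm_mid_sq (Y Y' : E n) :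
    ‖(1 / 2 : ℝ) • (Y + Y')‖ ^ 2 = (‖Y‖ ^ 2 + ‖Y'‖ ^ 2) / 2 - ‖Y - Y'‖ ^ 2 / 4 := by
  rw [norm_smul, mul_pow, norm_add_sq_real, norm_sub_sq_real]
  norm_num
  ring

theorem inner_mid (Y Y' u : E n) :
    ⟪(1 / 2 : ℝ) • (Y + Y'), u⟫ = (⟪Y, u⟫ + ⟪Y', u⟫) / 2 := by
  rw [real_inner_smul_left, inner_add_left]; ring

theorem gcap_disjoint {a h δ r : ℝ} (ha : 0 < a) (h0 : 0 < h) (h1 : h ≤ 1) (hδ0 : 0 ≤ δ)
    (hδ : δ ≤ 1) {Y Y' : E n} (hY : ‖Y‖ ≤ 1 + δ) (hY' : ‖Y'‖ ≤ 1 + δ) (hr0 : 0 ≤ r)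
    (hr : r ^ 2 = 16 * h) (hd : r ≤ ‖Y - Y'‖) :
    Disjoint (gcap a (1 - h + δ) Y) (gcap a (1 - h + δ) Y') := by
  rw [disjoint_left]
  intro u hu hu'
  rw [mem_gcap ha] at hu hu'
  set M := (1 / 2 : ℝ) • (Y + Y') with hM
  have e1 := norm_mid_sq Y Y'
  have e2 := inner_mid Y Y' (emb a u)
  rw [← hM] at e1 e2
  have e3 := real_inner_le_norm M (emb a u)
  have e4 : ‖M‖ * ‖emb a u‖ ≤ ‖M‖ * 1 := mul_le_mul_of_nonneg_left hu.1 (norm_nonneg _)
  have e5 : 1 - h + δ < ‖M‖ := by linarith [hu.2, hu'.2]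
  have e6 := pow_le_pow_left₀ (norm_nonneg _) hY 2
  have e7 := pow_le_pow_left₀ (norm_nonneg _) hY' 2
  have e8 := pow_le_pow_left₀ hr0 hd 2
  have e9 := pow_lt_pow_left₀ e5 (by linarith) two_ne_zero
  nlinarith

theorem num_norm {b σ δ x t : ℝ} (hb0 : 3 / 4 ≤ b) (hb1 : b ≤ 1) (hσ0 : 0 ≤ σ)
    (hσ1 : σ ≤ 1 / 16) (hδ0 : 0 ≤ δ) (hδσ : 6 * δ ≤ σ) (hx0 : 0 ≤ x) (hx : x ≤ 1 + δ)
    (ht : b * (1 + σ) ≤ t) :
    (1 + σ / 8) ^ 2 * x ^ 2 + 2 * ((1 + σ / 8) * ((b - (1 + σ / 8) * (b * (1 + σ))) * t)) +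
      (b - (1 + σ / 8) * (b * (1 + σ))) ^ 2 * 1 ^ 2 ≤ 1 ^ 2 := by
  have h9 : (1 + σ / 8) ^ 2 * (1 - σ / 2) ≤ 1 := by
    have : (1 + σ / 8) ^ 2 ≤ 1 + σ / 2 := by nlinarith
    have h10 := mul_le_mul_of_nonneg_right this (show 0 ≤ 1 - σ / 2 by linarith)
    nlinarith
  have h8 : (1 + δ) ^ 2 - (b * (1 + σ)) ^ 2 ≤ (1 - b ^ 2) * (1 - σ / 2) := by
    have hb2 : 1 / 2 ≤ b ^ 2 := by nlinarith
    have h9 : b ^ 2 * (1 + 2 * σ) ≤ (b * (1 + σ)) ^ 2 := by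
      rw [mul_pow]; exact mul_le_mul_of_nonneg_left (by nlinarith) (by positivity)
    have h10 : 1 / 2 * σ ≤ b ^ 2 * σ := mul_le_mul_of_nonneg_right hb2 hσ0
    have h11 : δ ^ 2 ≤ δ := by nlinarith
    nlinarith
  have hbb : b ≤ b * (1 + σ) := by nlinarith
  have hμ1 : 1 ≤ 1 + σ / 8 := by linarith
  generalize b * (1 + σ) = b' at *
  generalize 1 + σ / 8 = μ at *
  have hκ : b - μ * b' ≤ 0 := by nlinarith
  have h5 := pow_le_pow_left₀ hx0 hx 2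
  have h6 : μ ^ 2 * x ^ 2 ≤ μ ^ 2 * (1 + δ) ^ 2 := mul_le_mul_of_nonneg_left h5 (by positivity)
  have h7 : μ * ((b - μ * b') * t) ≤ μ * ((b - μ * b') * b') :=
    mul_le_mul_of_nonneg_left (mul_le_mul_of_nonpos_left ht hκ) (by linarith)
  have h10 : μ ^ 2 * ((1 + δ) ^ 2 - b' ^ 2) ≤ μ ^ 2 * ((1 - b ^ 2) * (1 - σ / 2)) :=
    mul_le_mul_of_nonneg_left h8 (by positivity)
  have h11 : 0 ≤ 1 - b ^ 2 := by nlinarith
  have h12 := mul_le_mul_of_nonneg_left h9 h11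
  linarith

theorem slab_le {b σ δ V : ℝ} (hb0 : 3 / 4 ≤ b) (hb1 : b ≤ 1) (hσ0 : 0 ≤ σ)
    (hσ1 : σ ≤ 1 / 16) (hδ0 : 0 ≤ δ) (hδσ : 6 * δ ≤ σ) (hV0 : 0 ≤ V)
    (hV : ∀ e : E n, ‖e‖ = 1 → volume.real (cap e b) = V) {M : E n} (hM1 : ‖M‖ ≤ 1 - σ) :
    (1 + σ / 8) ^ n * volume.real {u : E n | ‖u‖ ≤ 1 + δ ∧ b ≤ ⟪M, u⟫} ≤ V := by
  by_cases hM0 : M = 0
  · have : {u : E n | ‖u‖ ≤ 1 + δ ∧ b ≤ ⟪M, u⟫} = ∅ := by
      ext u
      simp only [hM0, inner_zero_left, Set.mem_ofPred_eq, Set.mem_empty_iff_false, iff_false,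
        not_and, not_le]
      exact fun _ => by linarith
    rw [this]; simpa using hV0
  obtain ⟨e, he, hMe⟩ := exists_dir hM0
  rw [← hV e he]
  refine hom_le (by positivity) ((b - (1 + σ / 8) * (b * (1 + σ))) • e) _ _ (cap_ne_top _ _)
    fun u hu => ?_
  have h2 := hu.2
  rw [hMe, real_inner_smul_left] at h2
  have hpos : 0 ≤ ⟪e, u⟫ := by
    by_contra hc
    push Not at hc
    nlinarith [norm_nonneg M]
  have h3 : b ≤ (1 - σ) * ⟪e, u⟫ := h2.trans (mul_le_mul_of_nonneg_right hM1 hpos)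
  have h4 : b * (1 + σ) ≤ ⟪e, u⟫ := by
    have : b * (1 + σ) ≤ (1 - σ) * ⟪e, u⟫ * (1 + σ) :=
      mul_le_mul_of_nonneg_right h3 (by linarith)
    nlinarith [mul_nonneg (sq_nonneg σ) hpos]
  refine ⟨?_, ?_⟩
  · refine le_of_sq_le_sq ?_ zero_le_one
    rw [norm_add_sq_real, norm_smul, norm_smul, he, real_inner_smul_left, real_inner_smul_right,
      real_inner_comm, mul_pow, mul_pow, Real.norm_eq_abs, Real.norm_eq_abs, sq_abs, sq_abs]
    exact num_norm hb0 hb1 hσ0 hσ1 hδ0 hδσ (norm_nonneg u) hu.1 h4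
  · rw [inner_comb _ _ _ he]
    have := mul_le_mul_of_nonneg_left h4 (show 0 ≤ 1 + σ / 8 by linarith)
    linarith

theorem gcap_overlap {a h V r : ℝ} (ha : 0 < a) (h0 : 0 < h) (h1 : h ≤ 1 / 4) (hV0 : 0 ≤ V)
    (hV : ∀ e : E n, ‖e‖ = 1 → volume.real (cap e (1 - h)) = V) {Y Y' : E n}
    (hY : ‖Y‖ ≤ 1 + a * n) (hY' : ‖Y'‖ ≤ 1 + a * n) (hr0 : 0 ≤ r) (hr1 : r ≤ 1)
    (hδ : 96 * (a * n) ≤ r ^ 2) (hd : r ≤ ‖Y - Y'‖) :
    (1 + r ^ 2 / 128) ^ n * ((gcap a (1 - h + a * n) Y ∩ gcap a (1 - h + a * n) Y').card * a ^ n)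
      ≤ V := by
  set δ := a * n with hδd
  have hδ0 : 0 ≤ δ := by positivity
  set σ := r ^ 2 / 16 with hσ
  have hσ0 : 0 ≤ σ := by positivity
  have hσ1 : σ ≤ 1 / 16 := by nlinarith
  have hδσ : 6 * δ ≤ σ := by linarith
  set b := 1 - h with hb
  set M := (1 / 2 : ℝ) • (Y + Y') with hM
  have e1 := norm_mid_sq Y Y'
  rw [← hM] at e1
  have e6 := pow_le_pow_left₀ (norm_nonneg _) hY 2
  have e7 := pow_le_pow_left₀ (norm_nonneg _) hY' 2
  have e8 := pow_le_pow_left₀ hr0 hd 2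
  have hM1 : ‖M‖ ≤ 1 - σ := by
    refine le_of_sq_le_sq ?_ (by linarith)
    have : δ ^ 2 ≤ δ := by nlinarith
    nlinarith [sq_nonneg σ]
  set S : Set (E n) := {u | ‖u‖ ≤ 1 + δ ∧ b ≤ ⟪M, u⟫} with hS
  have s1 : ((gcap a (b + δ) Y ∩ gcap a (b + δ) Y').card * a ^ n : ℝ) ≤ volume.real S := by
    refine count_le ha _ _ (vol_ne_top_of_norm_le fun u hu => hu.1) fun g hg y hy => ?_
    rw [mem_inter, mem_gcap ha, mem_gcap ha] at hg
    have e2 := inner_mid Y Y' (emb a g)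
    rw [← hM] at e2
    have h2 := norm_sub_norm_le y (emb a g)
    rw [norm_sub_rev] at h2
    have h3 := inner_close M _ _ hy (show ‖M‖ ≤ 1 by linarith)
    rw [abs_le] at h3
    exact ⟨by linarith [hg.1.1], by linarith [hg.1.2, hg.2.2]⟩
  have hμ : r ^ 2 / 128 = σ / 8 := by rw [hσ]; ring
  rw [hμ]
  refine (mul_le_mul_of_nonneg_left s1 (by positivity)).trans ?_
  exact slab_le (by linarith) (by linarith) hσ0 hσ1 hδ0 hδσ hV0 hV hM1

/-- The ball cut by the half-spaces given by the grid points of `ξ`. -/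
def body (a b : ℝ) (ξ : Finset (Γ n)) : Set (E n) :=
  {y | ‖y‖ ≤ 1 ∧ ∀ u ∈ ξ, ⟪emb a u, y⟫ ≤ b}

theorem body_compact (a b : ℝ) (ξ : Finset (Γ n)) : IsCompact (body a b ξ) := by
  refine (isCompact_closedBall (0 : E n) 1).of_isClosed_subset ?_
    fun y hy => mem_closedBall_zero_iff.2 hy.1
  have h1 : IsClosed {u : E n | ‖u‖ ≤ 1} := isClosed_le continuous_norm continuous_const
  have h2 : IsClosed {y : E n | ∀ u ∈ ξ, ⟪emb a u, y⟫ ≤ b} := by
    have : {y : E n | ∀ u ∈ ξ, ⟪emb a u, y⟫ ≤ b} = ⋂ u ∈ ξ, {y : E n | ⟪emb a u, y⟫ ≤ b} := by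
      ext y; simp
    rw [this]
    exact isClosed_biInter fun u _ => isClosed_le (by fun_prop) continuous_const
  exact h1.inter h2

theorem body_convex (a b : ℝ) (ξ : Finset (Γ n)) : Convex ℝ (body a b ξ) := by
  intro x hx y hy s t hs ht hst
  refine ⟨?_, fun u hu => ?_⟩
  · refine (norm_add_le _ _).trans ?_
    rw [norm_smul, norm_smul, Real.norm_of_nonneg hs, Real.norm_of_nonneg ht]
    nlinarith [hx.1, hy.1]
  · rw [inner_add_right, real_inner_smul_right, real_inner_smul_right]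
    have h1 := mul_le_mul_of_nonneg_left (hx.2 u hu) hs
    have h2 := mul_le_mul_of_nonneg_left (hy.2 u hu) ht
    have : s * b + t * b = b := by rw [← add_mul, hst, one_mul]
    linarith

theorem body_interior {a b : ℝ} (ha : 0 < a) (hb : 0 < b) (hb1 : b ≤ 1) {ξ : Finset (Γ n)}
    (hξ : ξ ⊆ gb n a 1) : (interior (body a b ξ)).Nonempty := by
  refine ⟨0, mem_interior.2 ⟨ball 0 b, fun y hy => ?_, isOpen_ball, mem_ball_self hb⟩⟩
  rw [mem_ball_zero_iff] at hy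
  refine ⟨by linarith, fun u hu => ?_⟩
  have h1 := (mem_gb ha).1 (hξ hu)
  have h2 := real_inner_le_norm (emb a u) y
  nlinarith [norm_nonneg y]

theorem body_vol {a b V : ℝ} (ha : 0 < a) (hb : 0 < b) (hV0 : 0 ≤ V)
    (hV : ∀ e : E n, ‖e‖ = 1 → volume.real (cap e b) = V) {ξ : Finset (Γ n)}
    (hξ : ξ ⊆ gb n a 1) : om n ≤ volume.real (body a b ξ) + ξ.card * V := by
  have h1 : closedBall (0 : E n) 1 ⊆ body a b ξ ∪ ⋃ u ∈ ξ, cap (emb a u) b := by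
    intro y hy
    rw [mem_closedBall_zero_iff] at hy
    by_cases h : ∀ u ∈ ξ, ⟪emb a u, y⟫ ≤ b
    · exact Or.inl ⟨hy, h⟩
    · push Not at h
      obtain ⟨u, hu, h⟩ := h
      exact Or.inr (Set.mem_biUnion hu ⟨hy, h.le⟩)
  have h2 := measureReal_mono (μ := volume) h1 (vol_ne_top_of_norm_le (r := 1) fun y hy => by
    rcases hy with h | h
    · exact h.1
    · obtain ⟨u, _, h⟩ := Set.mem_iUnion₂.1 h
      exact h.1)
  refine h2.trans ((measureReal_union_le _ _).trans ?_)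
  refine add_le_add le_rfl ((measureReal_biUnion_finset_le _ _).trans ?_)
  have := sum_le_sum fun u hu => cap_small hb hV0 hV ((mem_gb ha).1 (hξ hu))
  rwa [sum_const, nsmul_eq_mul] at this

end Vale.Agent.P230
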