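import Vale.Agent.P230.Plant

/-! Second moment bound for one group, and the product bound over independent groups. -/

set_option linter.unusedSectionVars false

namespace Vale.Agent.P230

open Finset

variable {α ι : Type*} [DecidableEq α]

theorem dL_toList (p : ℝ) (C : ι → Finset α) (T : Finset ι) (v : α) :
    dL p C T.toList v = ∑ j ∈ T, if v ∈ C j then 1 / (p * (C j).card) else 0 := by
  unfold dL
  rw [Finset.sum_map_toList]

theorem dL_zero (p : ℝ) (C : ι → Finset α) (T : Finset ι) (v : α)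
    (h : ¬ ∃ j ∈ T.toList, v ∈ C j) : dL p C T.toList v = 0 := by
  rw [dL_toList]
  exact sum_eq_zero fun j hj => if_neg fun hv => h ⟨j, mem_toList.2 hj, hv⟩

theorem dL_le (p : ℝ) (C : ι → Finset α) (T : Finset ι) (v : α)
    (h : ∃ j ∈ T.toList, v ∈ C j) :
    1 + dL p C T.toList v ≤ ∑ j ∈ T, if v ∈ C j then 1 + 1 / (p * (C j).card) else 0 := by
  obtain ⟨i, hi, hv⟩ := h
  have e : ∀ j, (if v ∈ C j then 1 + 1 / (p * (C j).card) else 0 : ℝ) =
      (if v ∈ C j then 1 else 0) + if v ∈ C j then 1 / (p * (C j).card) else 0 := by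
    intro j; split_ifs <;> simp
  simp only [e]
  rw [sum_add_distrib, dL_toList]
  have := single_le_sum (f := fun j => (if v ∈ C j then 1 else 0 : ℝ))
    (fun j _ => by split_ifs <;> norm_num) (mem_toList.1 hi)
  simp only [hv, if_true] at this
  linarith

theorem Zp_pair {p : ℝ} (hp0 : 0 < p) (hp1 : p ≤ 1) {U : Finset α} (C C' : ι → Finset α)
    (T T' : Finset ι) (h : ∀ j ∈ T, C j ⊆ U ∧ (C j).Nonempty)
    (h' : ∀ j ∈ T', C' j ⊆ U ∧ (C' j).Nonempty) :
    Ex p U (fun η => Zp p C T.toList η * Zp p C' T'.toList η) ≤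
      Real.exp (∑ j ∈ T, ∑ i ∈ T', p * (C j ∩ C' i).card *
        ((1 + 1 / (p * (C j).card)) * (1 + 1 / (p * (C' i).card)))) := by
  classical
  set D : α → Prop := fun u => ∃ j ∈ T.toList, u ∈ C j with hD
  set D' : α → Prop := fun u => ∃ j ∈ T'.toList, u ∈ C' j with hD'
  have s1 := Zp_marginal hp0 hp1 (U := U) C D' T.toList (fun j hj => h j (mem_toList.1 hj))
    (Zp p C' T'.toList) (Zp_nonneg hp0 hp1 C' _) (Zp_ins C' _)
  set x : α → ℝ := fun v => if D' v then dL p C T.toList v else 0 with hx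
  set y : α → ℝ := fun v => if D v then dL p C' T'.toList v else 0 with hy
  have hx0 : ∀ v, 0 ≤ x v := fun v => by
    simp only [hx]; split_ifs
    · exact dL_nonneg hp0 _ _ _
    · exact le_rfl
  have hy0 : ∀ v, 0 ≤ y v := fun v => by
    simp only [hy]; split_ifs
    · exact dL_nonneg hp0 _ _ _
    · exact le_rfl
  have hI : Ins D (fun η => ∏ v ∈ η, (1 + x v)) := by
    intro η u hu
    by_cases hm : u ∈ η
    · rw [insert_eq_of_mem hm]
    · have : x u = 0 := by simp only [hx, dL_zero p C T u hu, ite_self]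
      simp only []
      rw [prod_insert hm, this]; simp
  have s2 := Zp_marginal hp0 hp1 (U := U) C' D T'.toList (fun j hj => h' j (mem_toList.1 hj))
    (fun η => ∏ v ∈ η, (1 + x v))
    (fun η => prod_nonneg fun v _ => by linarith [hx0 v]) hI
  have s3 : Ex p U (fun η => (∏ v ∈ η, (1 + y v)) * ∏ v ∈ η, (1 + x v)) =
      ∏ v ∈ U, (1 + p * ((1 + x v) * (1 + y v) - 1)) := by
    rw [← Ex_prod]
    refine Ex_congr p fun η _ => ?_
    rw [← prod_mul_distrib]
    exact prod_congr rfl fun v _ => by ring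
  have s12 : Ex p U (fun η => (∏ v ∈ η, (1 + x v)) * Zp p C' T'.toList η) =
      Ex p U (fun η => Zp p C' T'.toList η * ∏ v ∈ η, (1 + x v)) :=
    Ex_congr p fun η _ => mul_comm _ _
  refine s1.trans (s12.le.trans (s2.trans (s3.le.trans ?_)))
  set e : α → ℝ := fun v => ∑ j ∈ T, if v ∈ C j then 1 + 1 / (p * (C j).card) else 0 with he
  set e' : α → ℝ := fun v => ∑ j ∈ T', if v ∈ C' j then 1 + 1 / (p * (C' j).card) else 0
    with he'
  have he0 : ∀ v, 0 ≤ e v := fun v => sum_nonneg fun j _ => by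
    split_ifs
    · positivity
    · exact le_rfl
  have he0' : ∀ v, 0 ≤ e' v := fun v => sum_nonneg fun j _ => by
    split_ifs
    · positivity
    · exact le_rfl
  have hg : ∀ v, (1 + x v) * (1 + y v) - 1 ≤ e v * e' v := by
    intro v
    by_cases h1 : D v
    · by_cases h2 : D' v
      · have a1 := dL_le p C T v h1
        have a2 := dL_le p C' T' v h2
        have : (1 + x v) * (1 + y v) ≤ e v * e' v := by
          simp only [hx, hy, h1, h2, if_true]
          exact mul_le_mul a1 a2 (by linarith [dL_nonneg hp0 C' T'.toList v]) (he0 v)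
        linarith
      · have : x v = 0 := by simp only [hx, h2, if_false]
        have h3 : y v = 0 := by simp only [hy, dL_zero p C' T' v h2, ite_self]
        rw [this, h3]
        have := mul_nonneg (he0 v) (he0' v)
        linarith
    · have : x v = 0 := by simp only [hx, dL_zero p C T v h1, ite_self]
      have h3 : y v = 0 := by simp only [hy, h1, if_false]
      rw [this, h3]
      have := mul_nonneg (he0 v) (he0' v)
      linarith
  have s4 : ∏ v ∈ U, (1 + p * ((1 + x v) * (1 + y v) - 1)) ≤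
      Real.exp (∑ v ∈ U, p * (e v * e' v)) := by
    rw [Real.exp_sum]
    refine prod_le_prod (fun v _ => ?_) fun v _ => ?_
    · have := mul_nonneg (hx0 v) (hy0 v)
      have : 0 ≤ (1 + x v) * (1 + y v) - 1 := by nlinarith [hx0 v, hy0 v]
      positivity
    · have := Real.add_one_le_exp (p * (e v * e' v))
      have := mul_le_mul_of_nonneg_left (hg v) hp0.le
      linarith
  refine s4.trans (le_of_eq ?_)
  congr 1
  simp only [he, he', sum_mul_sum]
  simp only [mul_sum]
  rw [sum_comm]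
  refine sum_congr rfl fun j hj => ?_
  rw [sum_comm]
  refine sum_congr rfl fun i hi => ?_
  have : ∀ v, p * ((if v ∈ C j then 1 + 1 / (p * (C j).card) else 0) *
      if v ∈ C' i then 1 + 1 / (p * (C' i).card) else 0) =
      if v ∈ C j ∩ C' i then p * ((1 + 1 / (p * (C j).card)) * (1 + 1 / (p * (C' i).card)))
        else 0 := by
    intro v
    by_cases h1 : v ∈ C j <;> by_cases h2 : v ∈ C' i <;> simp [h1, h2]
  simp only [this]
  rw [← sum_filter, sum_const, nsmul_eq_mul]
  have : U.filter (fun v => v ∈ C j ∩ C' i) = C j ∩ C' i := by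
    ext v
    simp only [mem_filter, and_iff_right_iff_imp]
    exact fun hv => (h j hj).1 (mem_inter.1 hv).1
  rw [this]; ring

variable {X : Type*}

open Classical in
/-- Indicator that every test point of `R` has a set `C x j`, `j ∈ T x`, missed by `η`. -/
noncomputable def covI (T : X → Finset ι) (C : X → ι → Finset α) (R : Finset X)
    (η : Finset α) : ℝ :=
  if ∀ x ∈ R, ∃ j ∈ T x, Disjoint η (C x j) then 1 else 0

theorem covI_nonneg (T : X → Finset ι) (C : X → ι → Finset α) (R : Finset X) (η : Finset α) :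
    0 ≤ covI T C R η := by
  unfold covI; split_ifs <;> norm_num

theorem covI_le_one (T : X → Finset ι) (C : X → ι → Finset α) (R : Finset X) (η : Finset α) :
    covI T C R η ≤ 1 := by
  unfold covI; split_ifs <;> norm_num

theorem covI_ins (T : X → Finset ι) (C : X → ι → Finset α) (R : Finset X) (D : α → Prop)
    (hD : ∀ x ∈ R, ∀ j ∈ T x, ∀ u ∈ C x j, D u) : Ins D (covI T C R) := by
  intro η u hu
  have : (∀ x ∈ R, ∃ j ∈ T x, Disjoint (insert u η) (C x j)) ↔
      ∀ x ∈ R, ∃ j ∈ T x, Disjoint η (C x j) := by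
    refine forall₂_congr fun x hx => exists_congr fun j => and_congr_right fun hj => ?_
    rw [disjoint_insert_left]
    exact and_iff_right fun h => hu (hD x hx j hj u h)
  unfold covI
  simp only [this]

theorem group_bound {p : ℝ} (hp0 : 0 < p) (hp1 : p ≤ 1) {U : Finset α} (T : X → Finset ι)
    (C : X → ι → Finset α) (G : Finset X) (hG : G.Nonempty)
    (h : ∀ x ∈ G, ∀ j ∈ T x, C x j ⊆ U ∧ (C x j).Nonempty) (Λ : ℝ)
    (hΛ : ∀ x ∈ G, ∏ j ∈ T x, (1 + 1 / (p * (C x j).card)) ≤ Λ)
    (near : X → X → Prop) [∀ x, DecidablePred (near x)]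
    (hnear : ∀ x ∈ G, ((G.filter (near x)).card : ℝ) * Λ ≤ G.card)
    (hfar : ∀ x ∈ G, ∀ y ∈ G, ¬ near x y → ∑ j ∈ T x, ∑ i ∈ T y, p * (C x j ∩ C y i).card *
        ((1 + 1 / (p * (C x j).card)) * (1 + 1 / (p * (C y i).card))) ≤ 1) :
    Ex p U (covI T C G) ≤ 3 / 4 := by
  set Z : X → Finset α → ℝ := fun x => Zp p (C x) (T x).toList with hZ
  have hg : (0 : ℝ) < G.card := by exact_mod_cast hG.card_pos
  have hm : ∀ x ∈ G, Ex p U (Z x) = 1 := fun x hx =>
    Zp_mean hp0 (C x) _ fun j hj => h x hx j (mem_toList.1 hj)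
  have hZ0 : ∀ x η, 0 ≤ Z x η := fun x η => Zp_nonneg hp0 hp1 _ _ _
  have hZΛ : ∀ x ∈ G, ∀ η, Z x η ≤ Λ := fun x hx η => by
    have := Zp_le hp0 hp1 (C x) (T x).toList η
    rw [Finset.prod_map_toList] at this
    exact this.trans (hΛ x hx)
  have hpair : ∀ x ∈ G, ∀ y ∈ G, Ex p U (fun η => Z x η * Z y η) ≤
      3 + if near x y then Λ else 0 := by
    intro x hx y hy
    split_ifs with hn
    · have : Ex p U (fun η => Z x η * Z y η) ≤ Ex p U (fun η => Λ * Z y η) :=
        Ex_mono hp0.le hp1 fun η _ => mul_le_mul_of_nonneg_right (hZΛ x hx η) (hZ0 y η)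
      rw [Ex_mul, hm y hy] at this
      linarith
    · have h1 := Zp_pair hp0 hp1 (C x) (C y) (T x) (T y) (h x hx) (h y hy)
      have h2 := Real.exp_le_exp.2 (hfar x hx y hy hn)
      have h3 := Real.exp_one_lt_d9
      simp only [hZ]
      linarith
  set W : Finset α → ℝ := fun η => ∑ x ∈ G, Z x η with hW
  have hW1 : Ex p U W = G.card := by
    rw [hW, Ex_sum, sum_congr rfl hm]; simp
  have hW2 : Ex p U (fun η => W η * W η) ≤ 4 * (G.card : ℝ) ^ 2 := by
    simp only [hW, sum_mul_sum]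
    rw [Ex_sum]
    have : ∀ x ∈ G, Ex p U (fun η => ∑ y ∈ G, Z x η * Z y η) ≤ 4 * G.card := by
      intro x hx
      rw [Ex_sum]
      refine (sum_le_sum (hpair x hx)).trans ?_
      rw [sum_add_distrib, ← sum_filter, sum_const, sum_const, nsmul_eq_mul, nsmul_eq_mul]
      linarith [hnear x hx]
    refine (sum_le_sum this).trans (le_of_eq ?_)
    rw [sum_const, nsmul_eq_mul]; ring
  set A : Finset α → ℝ := fun η => 1 - covI T C G η with hA
  have hWA : ∀ η, W η * A η = W η := by
    intro η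
    simp only [hA, covI]
    split_ifs with hc
    · have : W η = 0 := sum_eq_zero fun x hx => by
        obtain ⟨j, hj, hd⟩ := hc x hx
        exact Zp_support (C x) _ η ⟨j, mem_toList.2 hj, hd⟩
      rw [this]; simp
    · simp
  have hAA : ∀ η, A η * A η = 1 + (-1) * covI T C G η := by
    intro η
    simp only [hA, covI]
    split_ifs <;> simp
  have cs := Ex_sq_le hp0.le hp1 U W A
  simp only [hWA, hAA] at cs
  rw [Ex_add, Ex_mul, Ex_const] at cs
  have hW1' : Ex p U (fun η => W η) = G.card := hW1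
  rw [hW1'] at cs
  have hc1 : Ex p U (covI T C G) ≤ 1 := by
    have := Ex_mono hp0.le hp1 (U := U) (G := fun _ => 1) fun η _ => covI_le_one T C G η
    rwa [Ex_const] at this
  have hc' : Ex p U (fun η => covI T C G η) = Ex p U (covI T C G) := rfl
  rw [hc'] at cs
  have h5 := mul_le_mul_of_nonneg_right hW2 (show 0 ≤ 1 + -1 * Ex p U (covI T C G) by linarith)
  have h6 : (G.card : ℝ) ^ 2 * 1 ≤ (G.card : ℝ) ^ 2 * (4 * (1 + -1 * Ex p U (covI T C G))) := by
    linarith
  have h7 := le_of_mul_le_mul_left h6 (by positivity)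
  linarith

theorem greedy_bound {p : ℝ} (hp0 : 0 < p) (hp1 : p ≤ 1) {U : Finset α} (T : X → Finset ι)
    (C : X → ι → Finset α) (S : Finset X) (s0 rem : ℝ) (hrem : 0 ≤ rem)
    (step : ∀ R ⊆ S, s0 ≤ R.card → ∃ G ⊆ R, ∃ R' ⊆ R, (R.card : ℝ) ≤ R'.card + rem ∧
      (∀ x ∈ G, ∀ y ∈ R', ∀ j ∈ T x, ∀ i ∈ T y, Disjoint (C x j) (C y i)) ∧
      Ex p U (covI T C G) ≤ 3 / 4) :
    ∀ L : ℕ, ∀ R ⊆ S, s0 + L * rem ≤ R.card → Ex p U (covI T C R) ≤ (3 / 4) ^ L := by
  intro L
  induction L with
  | zero =>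
    intro R _ _
    have := Ex_mono hp0.le hp1 (U := U) (G := fun _ => 1) fun η _ => covI_le_one T C R η
    rwa [Ex_const, ← pow_zero (3 / 4 : ℝ)] at this
  | succ L ih =>
    intro R hR hc
    push_cast at hc
    have hL : (0 : ℝ) ≤ L * rem := by positivity
    obtain ⟨G, hG, R', hR', h1, h2, h3⟩ := step R hR (by nlinarith)
    have h4 := ih R' (hR'.trans hR) (by nlinarith)
    set D : α → Prop := fun u => ∃ x ∈ G, ∃ j ∈ T x, u ∈ C x j with hD
    have i1 : Ins D (covI T C G) := covI_ins T C G D fun x hx j hj u hu => ⟨x, hx, j, hj, hu⟩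
    have i2 : Ins (fun u => ¬ D u) (covI T C R') :=
      covI_ins T C R' _ fun y hy i hi u hu ⟨x, hx, j, hj, hu'⟩ =>
        disjoint_left.1 (h2 x hx y hy j hj i hi) hu' hu
    have h5 := Ex_indep p U D _ _ i1 i2
    have h6 : Ex p U (covI T C R) ≤ Ex p U (fun η => covI T C G η * covI T C R' η) := by
      refine Ex_mono hp0.le hp1 fun η _ => ?_
      by_cases hc : ∀ x ∈ R, ∃ j ∈ T x, Disjoint η (C x j)
      · unfold covI
        rw [if_pos hc, if_pos (fun x hx => hc x (hG hx)), if_pos (fun x hx => hc x (hR' hx))]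
        norm_num
      · have := mul_nonneg (covI_nonneg T C G η) (covI_nonneg T C R' η)
        refine le_trans (le_of_eq ?_) this
        unfold covI
        rw [if_neg hc]
    have h7 : 0 ≤ Ex p U (covI T C R') := Ex_nonneg hp0.le hp1 fun η _ => covI_nonneg T C R' η
    rw [h5] at h6
    rw [pow_succ]
    have := mul_le_mul h3 h4 h7 (by norm_num)
    linarith

end Vale.Agent.P230
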