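import Vale.Agent.P230.Weight
import Vale.Agent.P230.Second

/-! The probability that a fixed thin configuration covers the test window is tiny. -/

namespace Vale.Agent.P230

open Finset MeasureTheory Metric
open scoped RealInnerProductSpace

variable {n : ℕ}

open Classical in
/-- Centres whose slightly enlarged ball contains `x`. -/
noncomputable def Tx (a : ℝ) (T : Finset (Γ n)) (x : Γ n) : Finset (Γ n) :=
  T.filter fun t => ‖emb a (x - t)‖ ≤ 1 + a * n

/-- Grid directions that robustly cut `x - t` off. -/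
noncomputable def Cx (a h : ℝ) (x t : Γ n) : Finset (Γ n) :=
  gcap a (1 - h + a * n) (emb a (x - t))

theorem mem_Tx {a : ℝ} {T : Finset (Γ n)} {x t : Γ n} :
    t ∈ Tx a T x ↔ t ∈ T ∧ ‖emb a (x - t)‖ ≤ 1 + a * n := by
  classical
  unfold Tx
  rw [mem_filter]

theorem sum_Tx (a : ℝ) (T : Finset (Γ n)) (x : Γ n) :
    ∑ t ∈ Tx a T x, (2 : ℝ) ^ kk a (x - t) = ∑ t ∈ T, wt a (x - t) := by
  unfold Tx wt
  rw [sum_filter]

theorem gb_one_lower {a : ℝ} (ha : 0 < a) (hn : 0 < n) (hδ : a * n * n ≤ 1 / 2) :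
    om n / 2 ≤ (gb n a 1).card * a ^ n := by
  have hn1 : (1 : ℝ) ≤ n := by exact_mod_cast hn
  have hδ0 : 0 ≤ a * n := by positivity
  have hδ1 : a * n ≤ 1 / 2 := by nlinarith
  refine le_trans ?_ (gb_lower ha (by linarith))
  have := one_add_mul_le_pow (a := -(a * n)) (by linarith) n
  have h2 : 1 / 2 ≤ (1 - a * n) ^ n := by
    rw [← sub_eq_add_neg] at this
    linarith
  have := om_pos n
  nlinarith

theorem markov_half {ι : Type*} (B : Finset ι) (f : ι → ℝ) (hf : ∀ x, 0 ≤ f x) {Θ : ℝ}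
    (hΘ : 0 < Θ) (h : ∑ x ∈ B, f x ≤ Θ / 2 * B.card) :
    (B.card : ℝ) / 2 ≤ (B.filter fun x => f x ≤ Θ).card := by
  have h1 := card_filter_add_card_filter_not (s := B) fun x => f x ≤ Θ
  have h2 : ((B.filter fun x => ¬ f x ≤ Θ).card : ℝ) * Θ ≤ ∑ x ∈ B, f x := by
    rw [← nsmul_eq_mul]
    refine (card_nsmul_le_sum _ f _ fun x hx => (not_le.1 (mem_filter.1 hx).2).le).trans ?_
    exact sum_le_sum_of_subset_of_nonneg (filter_subset _ _) fun x _ _ => hf x
  have h3 : ((B.filter fun x => ¬ f x ≤ Θ).card : ℝ) ≤ B.card / 2 :=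
    le_of_mul_le_mul_right (by linarith) hΘ
  have h4 : ((B.filter fun x => f x ≤ Θ).card : ℝ) +
      ((B.filter fun x => ¬ f x ≤ Θ).card : ℝ) = B.card := by exact_mod_cast h1
  linarith

theorem group_prob {a h V p Θ K0 r0 r1 m0 : ℝ} (ha : 0 < a) (hn : 0 < n)
    (hδ : a * n * n ≤ 1 / 2) (h0 : 0 < h) (h1 : h ≤ 1 / 12) (hV0 : 0 < V)
    (hV : ∀ e : E n, ‖e‖ = 1 → volume.real (cap e (1 - h)) = V) (hp : p * V * 12 = a ^ n)
    (hp0 : 0 < p) (hp1 : p ≤ 1) (hK : 12 * K0 ≤ n * h)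
    (hkK : ∀ k : ℕ, (2 : ℝ) ^ k ≤ Θ → k + 1 ≤ K0)
    (hr0 : 0 ≤ r0) (hr01 : r0 ≤ 1) (hr0δ : 96 * (a * n) ≤ r0 ^ 2)
    (hfar : Θ ^ 2 * Real.exp (13 / h * K0) ^ 2 ≤ (1 + r0 ^ 2 / 128) ^ n)
    (hr1 : 0 < r1)
    (hnear : m0 ^ 2 * (2 * r0) ^ n * Real.exp (13 / h * Θ) ≤ (r1 / 6) ^ n / 8)
    (T : Finset (Γ n)) (hT : T.card ≤ m0) (G : Finset (Γ n))
    (hG : ∀ x ∈ G, ∑ t ∈ T, wt a (x - t) ≤ Θ)
    (hGc : (r1 / 6) ^ n / 8 * om n ≤ G.card * a ^ n) :
    Ex p (gb n a 1) (covI (Tx a T) (Cx a h) G) ≤ 3 / 4 := by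
  classical
  have hom := om_pos n
  have han : 0 < a ^ n := by positivity
  have hδ0 : 0 ≤ a * n := by positivity
  have hGne : G.Nonempty := by
    refine card_pos.1 ?_
    have : 0 < (r1 / 6) ^ n / 8 * om n := by positivity
    have h2 : (0 : ℝ) < G.card := (mul_pos_iff_of_pos_right han).1 (this.trans_le hGc)
    exact_mod_cast h2
  have hk : ∀ x ∈ G, ∀ t ∈ Tx a T x, (kk a (x - t) : ℝ) + 1 ≤ K0 := by
    intro x hx t ht
    refine hkK _ (le_trans ?_ ((sum_Tx a T x).le.trans (hG x hx)))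
    exact single_le_sum (f := fun t => (2 : ℝ) ^ kk a (x - t)) (fun _ _ => by positivity) ht
  have hpt : ∀ x ∈ G, ∀ t ∈ Tx a T x, (Cx a h x t).Nonempty ∧
      1 + 1 / (p * (Cx a h x t).card) ≤ Real.exp (13 / h * (kk a (x - t) + 1)) :=
    fun x hx t ht => point_est ha hn hδ h0 h1 hV0 hV hp hK (mem_Tx.1 ht).2 (hk x hx t ht)
  have hpow : ∀ k : ℕ, (k : ℝ) + 1 ≤ 2 ^ k := fun k => by
    exact_mod_cast Nat.lt_two_pow_self (n := k)
  have hcard : ∀ x ∈ G, ((Tx a T x).card : ℝ) ≤ Θ := by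
    intro x hx
    refine le_trans ?_ ((sum_Tx a T x).le.trans (hG x hx))
    have := card_nsmul_le_sum (Tx a T x) (fun t => (2 : ℝ) ^ kk a (x - t)) 1
      fun t _ => one_le_pow₀ (by norm_num)
    simpa using this
  refine group_bound hp0 hp1 (Tx a T) (Cx a h) G hGne
    (fun x hx t ht => ⟨gcap_subset _ _ _, (hpt x hx t ht).1⟩) (Real.exp (13 / h * Θ))
    (fun x hx => ?_) (nearP a T r0) (fun x hx => ?_) (fun x hx y hy hxy => ?_)
  · refine (prod_le_prod (fun t _ => by positivity) fun t ht => (hpt x hx t ht).2).trans ?_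
    rw [← Real.exp_sum, ← mul_sum]
    refine Real.exp_le_exp.2 (mul_le_mul_of_nonneg_left ?_ (by positivity))
    exact (sum_le_sum fun t _ => hpow _).trans ((sum_Tx a T x).le.trans (hG x hx))
  · have e1 : ((G.filter (nearP a T r0 x)).card : ℝ) ≤ T.card ^ 2 * (gb n a r0).card := by
      exact_mod_cast card_nearP ha T G r0 x
    have e2 : (T.card : ℝ) ^ 2 ≤ m0 ^ 2 := pow_le_pow_left₀ (by positivity) hT 2
    have e3 := gb_upper (n := n) ha hr0
    have e4 : (r0 + a * n) ^ n ≤ (2 * r0) ^ n :=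
      pow_le_pow_left₀ (by positivity) (by nlinarith) n
    have e5 : ((G.filter (nearP a T r0 x)).card : ℝ) * a ^ n ≤ m0 ^ 2 * ((2 * r0) ^ n * om n) :=
      calc _ ≤ T.card ^ 2 * (gb n a r0).card * a ^ n := mul_le_mul_of_nonneg_right e1 han.le
        _ = T.card ^ 2 * ((gb n a r0).card * a ^ n) := by ring
        _ ≤ _ := mul_le_mul e2 (e3.trans (mul_le_mul_of_nonneg_right e4 hom.le))
          (by positivity) (by positivity)
    refine le_of_mul_le_mul_right ?_ han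
    have e6 := mul_le_mul_of_nonneg_right e5 (Real.exp_pos (13 / h * Θ)).le
    have e7 := mul_le_mul_of_nonneg_right hnear hom.le
    linarith
  · set M := Real.exp (13 / h * K0) with hM
    set Q := (1 + r0 ^ 2 / 128) ^ n with hQ
    have hQ0 : 0 < Q := by positivity
    have hM1 : ∀ x ∈ G, ∀ t ∈ Tx a T x, 1 + 1 / (p * (Cx a h x t).card) ≤ M := fun x hx t ht =>
      (hpt x hx t ht).2.trans
        (Real.exp_le_exp.2 (mul_le_mul_of_nonneg_left (hk x hx t ht) (by positivity)))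
    have hterm : ∀ j ∈ Tx a T x, ∀ i ∈ Tx a T y, p * (Cx a h x j ∩ Cx a h y i).card *
        ((1 + 1 / (p * (Cx a h x j).card)) * (1 + 1 / (p * (Cx a h y i).card))) ≤
          M ^ 2 / Q := by
      intro j hj i hi
      have hd : r0 ≤ ‖emb a (x - j) - emb a (y - i)‖ := by
        by_contra hc
        refine hxy ⟨j, (mem_Tx.1 hj).1, i, (mem_Tx.1 hi).1, ?_⟩
        rw [show y - (x - j + i) = (y - i) - (x - j) by abel, emb_sub, norm_sub_rev]
        exact (not_le.1 hc).le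
      have e1 := gcap_overlap ha h0 (by linarith) hV0.le hV (mem_Tx.1 hj).2 (mem_Tx.1 hi).2
        hr0 hr01 hr0δ hd
      rw [← hp] at e1
      have e2 : p * (Cx a h x j ∩ Cx a h y i).card ≤ 1 / Q := by
        rw [le_div_iff₀ hQ0]
        have e3 : 0 ≤ p * (Cx a h x j ∩ Cx a h y i).card * Q := by positivity
        have e4 : p * (Cx a h x j ∩ Cx a h y i).card * Q * 12 ≤ 1 :=
          le_of_mul_le_mul_right (by unfold Cx; linarith) hV0
        linarith
      have e5 := mul_le_mul (hM1 x hx j hj) (hM1 y hy i hi) (by positivity) (by positivity)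
      calc _ ≤ 1 / Q * (M * M) := mul_le_mul e2 e5 (by positivity) (by positivity)
        _ = _ := by ring
    have e1 : ∑ j ∈ Tx a T x, ∑ i ∈ Tx a T y, p * (Cx a h x j ∩ Cx a h y i).card *
        ((1 + 1 / (p * (Cx a h x j).card)) * (1 + 1 / (p * (Cx a h y i).card))) ≤
          (Tx a T x).card * ((Tx a T y).card * (M ^ 2 / Q)) := by
      rw [← nsmul_eq_mul, ← nsmul_eq_mul]
      exact sum_le_card_nsmul _ _ _ fun j hj => sum_le_card_nsmul _ _ _ fun i hi => hterm j hj i hi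
    refine e1.trans ?_
    have hΘ0 : 0 ≤ Θ := le_trans (by positivity) (hcard x hx)
    calc _ ≤ Θ * (Θ * (M ^ 2 / Q)) := mul_le_mul (hcard x hx)
          (mul_le_mul_of_nonneg_right (hcard y hy) (by positivity)) (by positivity) hΘ0
      _ = Θ ^ 2 * M ^ 2 / Q := by ring
      _ ≤ 1 := by rw [div_le_one hQ0]; exact hfar

theorem cover_prob {a h V p Θ K0 r0 r1 m0 : ℝ} (L : ℕ) (ha : 0 < a) (hn : 0 < n)
    (hδ : a * n * n ≤ 1 / 2) (h0 : 0 < h) (h1 : h ≤ 1 / 12) (hV0 : 0 < V)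
    (hV : ∀ e : E n, ‖e‖ = 1 → volume.real (cap e (1 - h)) = V) (hp : p * V * 12 = a ^ n)
    (hp0 : 0 < p) (hp1 : p ≤ 1) (hΘ : 0 < Θ) (hK : 12 * K0 ≤ n * h)
    (hkK : ∀ k : ℕ, (2 : ℝ) ^ k ≤ Θ → k + 1 ≤ K0)
    (hr0 : 0 ≤ r0) (hr01 : r0 ≤ 1) (hr0δ : 96 * (a * n) ≤ r0 ^ 2)
    (hfar : Θ ^ 2 * Real.exp (13 / h * K0) ^ 2 ≤ (1 + r0 ^ 2 / 128) ^ n)
    (hr1 : 0 < r1) (hr11 : r1 ≤ 1) (hr1h : r1 ^ 2 = 16 * h) (hr1δ : 2 * (a * n) ≤ r1)
    (hnear : m0 ^ 2 * (2 * r0) ^ n * Real.exp (13 / h * Θ) ≤ (r1 / 6) ^ n / 8)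
    (hL : L * (m0 ^ 2 * (3 * r1) ^ n) ≤ 1 / 8)
    (T : Finset (Γ n)) (hT : T.card ≤ m0)
    (hw : ∑ x ∈ gb n a 1, ∑ t ∈ T, wt a (x - t) ≤ Θ / 2 * (gb n a 1).card) :
    Ex p (gb n a 1) (covI (Tx a T) (Cx a h) (gb n a 1)) ≤ (3 / 4) ^ L := by
  classical
  have hom := om_pos n
  have han : 0 < a ^ n := by positivity
  have hδ0 : 0 ≤ a * n := by positivity
  set B := gb n a 1 with hB
  set S := B.filter fun x => ∑ t ∈ T, wt a (x - t) ≤ Θ with hS
  have hSc : (B.card : ℝ) / 2 ≤ S.card :=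
    markov_half B _ (fun x => sum_nonneg fun t _ => wt_nonneg _ _) hΘ hw
  have hBc : om n / 2 ≤ B.card * a ^ n := gb_one_lower ha hn hδ
  set rem : ℝ := T.card ^ 2 * (gb n a (2 * r1)).card with hrem
  have hremb : rem * a ^ n ≤ m0 ^ 2 * (3 * r1) ^ n * om n := by
    have e2 : (T.card : ℝ) ^ 2 ≤ m0 ^ 2 := pow_le_pow_left₀ (by positivity) hT 2
    have e3 := gb_upper (n := n) (r := 2 * r1) ha (by positivity)
    have e4 : (2 * r1 + a * n) ^ n ≤ (3 * r1) ^ n :=
      pow_le_pow_left₀ (by positivity) (by linarith) n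
    calc rem * a ^ n = T.card ^ 2 * ((gb n a (2 * r1)).card * a ^ n) := by rw [hrem]; ring
      _ ≤ m0 ^ 2 * ((3 * r1) ^ n * om n) :=
          mul_le_mul e2 (e3.trans (mul_le_mul_of_nonneg_right e4 hom.le))
          (by positivity) (by positivity)
      _ = _ := by ring
  have hmono : Ex p B (covI (Tx a T) (Cx a h) B) ≤ Ex p B (covI (Tx a T) (Cx a h) S) := by
    refine Ex_mono hp0.le hp1 fun η _ => ?_
    by_cases hc : ∀ x ∈ B, ∃ j ∈ Tx a T x, Disjoint η (Cx a h x j)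
    · unfold covI
      rw [if_pos hc, if_pos (fun x hx => hc x (mem_filter.1 hx).1)]
    · refine le_trans (le_of_eq ?_) (covI_nonneg _ _ _ _)
      unfold covI
      rw [if_neg hc]
  refine hmono.trans (greedy_bound hp0 hp1 (Tx a T) (Cx a h) S (B.card / 4) rem (by positivity)
    (fun R hR hRc => ?_) L S Subset.rfl ?_)
  · obtain ⟨z, G, hGR, hGz, hGc⟩ := exists_dense ha hr11 R (hR.trans (filter_subset _ _))
    refine ⟨G, hGR, R.filter fun y => ¬ nearP a T (2 * r1) z y, filter_subset _ _, ?_, ?_, ?_⟩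
    · have e1 := card_filter_add_card_filter_not (s := R) (nearP a T (2 * r1) z)
      have e2 := card_nearP ha T R (2 * r1) z
      have e3 : R.card ≤ (R.filter fun y => ¬ nearP a T (2 * r1) z y).card +
          T.card ^ 2 * (gb n a (2 * r1)).card := by omega
      rw [hrem]
      exact_mod_cast e3
    · intro x hx y hy j hj i hi
      refine gcap_disjoint ha h0 (by linarith) hδ0 (by linarith) (mem_Tx.1 hj).2 (mem_Tx.1 hi).2
        hr1.le hr1h ?_
      by_contra hc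
      refine (mem_filter.1 hy).2 ⟨j, (mem_Tx.1 hj).1, i, (mem_Tx.1 hi).1, ?_⟩
      rw [show y - (z - j + i) = ((y - i) - (x - j)) + (x - z) by abel, emb_add, emb_sub]
      refine (norm_add_le _ _).trans ?_
      rw [norm_sub_rev]
      linarith [hGz x hx, not_le.1 hc]
    · refine group_prob ha hn hδ h0 h1 hV0 hV hp hp0 hp1 hK hkK hr0 hr01 hr0δ hfar hr1 hnear T hT
        G (fun x hx => (mem_filter.1 (hR (hGR hx))).2) ?_
      have e1 : (R.card : ℝ) * (gb n a r1).card ≤ G.card * (gb n a 2).card := by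
        exact_mod_cast hGc
      have e2 := gb_upper (n := n) (r := 2) ha (by norm_num)
      have e3 : (2 + a * n) ^ n ≤ (3 : ℝ) ^ n := pow_le_pow_left₀ (by positivity) (by linarith) n
      have e4 := gb_lower (n := n) (r := r1) ha (by linarith)
      have e5 : (r1 / 2) ^ n ≤ (r1 - a * n) ^ n :=
        pow_le_pow_left₀ (by positivity) (by linarith) n
      have e6 : om n / 8 ≤ R.card * a ^ n := by
        have := mul_le_mul_of_nonneg_right hRc han.le
        linarith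
      have e7 : om n / 8 * ((r1 / 2) ^ n * om n) ≤ G.card * a ^ n * (3 ^ n * om n) :=
        calc _ ≤ R.card * a ^ n * ((gb n a r1).card * a ^ n) :=
              mul_le_mul e6 ((mul_le_mul_of_nonneg_right e5 hom.le).trans e4) (by positivity)
                (by positivity)
          _ = R.card * (gb n a r1).card * (a ^ n * a ^ n) := by ring
          _ ≤ G.card * (gb n a 2).card * (a ^ n * a ^ n) :=
              mul_le_mul_of_nonneg_right e1 (by positivity)
          _ = G.card * a ^ n * ((gb n a 2).card * a ^ n) := by ring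
          _ ≤ _ := mul_le_mul_of_nonneg_left
              (e2.trans (mul_le_mul_of_nonneg_right e3 hom.le)) (by positivity)
      have e8 : (r1 / 2) ^ n = (r1 / 6) ^ n * 3 ^ n := by rw [← mul_pow]; congr 1; ring
      rw [e8] at e7
      refine le_of_mul_le_mul_right ?_ (show 0 < 3 ^ n * om n by positivity)
      linarith
  · have e1 : L * rem * a ^ n ≤ B.card / 4 * a ^ n := by
      have e2 := mul_le_mul_of_nonneg_left hremb (Nat.cast_nonneg (α := ℝ) L)
      have e3 := mul_le_mul_of_nonneg_right hL hom.le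
      linarith
    have := le_of_mul_le_mul_right e1 han
    linarith

end Vale.Agent.P230
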