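import Vale.Agent.P230.Main

/-! From the finite statement to densities. -/

namespace Vale.Agent.P230

open Finset MeasureTheory Metric Filter
open scoped RealInnerProductSpace Pointwise ENNReal

variable {n : ℕ}

theorem cube_bounded (R : ℝ) : Bornology.IsBounded {x : E n | ∀ i, |x i| ≤ R} := by
  refine (isBounded_closedBall (x := (0 : E n)) (r := |R| * n + 1)).subset fun x hx => ?_
  rw [mem_closedBall_zero_iff, EuclideanSpace.norm_eq, Real.sqrt_le_iff]
  refine ⟨by positivity, ?_⟩
  have h : ∀ i ∈ (univ : Finset (Fin n)), ‖x i‖ ^ 2 ≤ |R| ^ 2 := fun i _ =>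
    pow_le_pow_left₀ (norm_nonneg _) ((hx i).trans (le_abs_self R)) 2
  refine (sum_le_sum h).trans ?_
  rw [sum_const, card_univ, Fintype.card_fin, nsmul_eq_mul]
  have : (n : ℝ) ≤ (n : ℝ) ^ 2 := by exact_mod_cast Nat.le_self_pow two_ne_zero n
  have h1 : 0 ≤ |R| * n := by positivity
  nlinarith [sq_nonneg |R|]

theorem vol_cube {R : ℝ} (hR : 0 ≤ R) :
    volume {x : E n | ∀ i, |x i| ≤ R} = ENNReal.ofReal ((2 * R) ^ n) := by
  have : {x : E n | ∀ i, |x i| ≤ R} = (WithLp.ofLp : E n → Fin n → ℝ) ⁻¹'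
      (Set.Icc (fun _ => -R) fun _ => R) := by
    ext x
    simp only [Set.mem_ofPred_eq, Set.mem_preimage, Set.mem_Icc, Pi.le_def, abs_le, forall_and]
  rw [this, (PiLp.volume_preserving_ofLp (Fin n)).measure_preimage
    measurableSet_Icc.nullMeasurableSet, Real.volume_Icc_pi]
  rw [prod_const, card_univ, Fintype.card_fin, ← ENNReal.ofReal_pow (by linarith)]
  congr 2; ring

theorem window_le {a c : ℝ} (ha : 0 < a) (hc : 0 ≤ c) :
    ∀ᶠ M : ℕ in atTop, (2 * (a * M + c)) ^ n ≤ 2 * (a ^ n * (2 * M + 1) ^ n) := by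
  filter_upwards [tendsto_natCast_atTop_atTop.eventually_ge_atTop (2 * n * c / a + 1)] with M hM
  have hM0 : (0 : ℝ) < M := lt_of_lt_of_le (by positivity) hM
  have h1 : 2 * n * c ≤ M * a := by
    rw [← div_le_iff₀ ha]; linarith
  set x := c / (a * M) with hx
  have hx0 : 0 ≤ x := by positivity
  have h2 : n * x ≤ 1 / 2 := by
    rw [hx, ← mul_div_assoc, div_le_iff₀ (by positivity)]; linarith
  have h3 : 2 * (a * M + c) ≤ (1 + x) * (a * (2 * M + 1)) := by
    have : x * (a * M) = c := by rw [hx]; field_simp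
    have h4 : 0 ≤ x * a := by positivity
    nlinarith
  have h4 := pow_le_exp (x := 1 + x) (by positivity) n
  have h5 : Real.exp (n * (1 + x - 1)) ≤ 2 := by
    have e1 : Real.exp (n * (1 + x - 1)) ≤ Real.exp (1 / 2) := Real.exp_le_exp.2 (by linarith)
    have e2 : Real.exp (1 / 2) * Real.exp (1 / 2) = Real.exp 1 := by
      rw [← Real.exp_add]; norm_num
    have e3 := Real.exp_one_lt_d9
    have e4 := Real.exp_pos (1 / 2)
    nlinarith
  refine (pow_le_pow_left₀ (by positivity) h3 n).trans ?_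
  rw [mul_pow, mul_pow]
  exact mul_le_mul_of_nonneg_right (h4.trans h5) (by positivity)

theorem lattice_count (L : Submodule ℤ (E n)) [DiscreteTopology L] [IsZLattice ℝ L] :
    ∃ c : ℝ, 0 ≤ c ∧ ∀ R : ℝ, 0 ≤ R → ∃ F : Finset (E n),
      (∀ τ ∈ (L : Set (E n)), (∀ i, |τ i| ≤ R) → τ ∈ F) ∧
        F.card * ZLattice.covolume L ≤ (2 * (R + c)) ^ n := by
  classical
  set b := (Module.Free.chooseBasis ℤ L).ofZLatticeBasis ℝ L with hb
  have hspan : Submodule.span ℤ (Set.range b) = L := Module.Basis.ofZLatticeBasis_span ℝ L _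
  set D := ZSpan.fundamentalDomain b with hD
  have hcov : ZLattice.covolume L = volume.real D :=
    ZLattice.covolume_eq_measure_fundamentalDomain L volume
      (ZLattice.isAddFundamentalDomain (Module.Free.chooseBasis ℤ L) volume)
  obtain ⟨c, hc0, hc⟩ := (ZSpan.fundamentalDomain_isBounded b).exists_pos_norm_le
  refine ⟨c, hc0.le, fun R hR => ?_⟩
  have hfin := ZSpan.setFinite_inter b (cube_bounded (n := n) R)
  rw [hspan] at hfin
  refine ⟨hfin.toFinset, fun τ h1 h2 => hfin.mem_toFinset.2 ⟨h2, h1⟩, ?_⟩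
  have hDm : MeasurableSet D := ZSpan.fundamentalDomain_measurableSet b
  have hdis : (hfin.toFinset : Set (E n)).PairwiseDisjoint fun x => x +ᵥ D := by
    intro x hx y hy hxy
    rw [mem_coe, hfin.mem_toFinset] at hx hy
    refine Set.disjoint_left.2 fun w hwx hwy => hxy ?_
    rw [Set.mem_vadd_set_iff_neg_vadd_mem] at hwx hwy
    have hx' : -x ∈ Submodule.span ℤ (Set.range b) := by rw [hspan]; exact L.neg_mem hx.2
    have hy' : -y ∈ Submodule.span ℤ (Set.range b) := by rw [hspan]; exact L.neg_mem hy.2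
    have := (ZSpan.exist_unique_vadd_mem_fundamentalDomain b w).unique
      (y₁ := ⟨-x, hx'⟩) (y₂ := ⟨-y, hy'⟩) hwx hwy
    simpa using this
  have h1 := measure_biUnion_finset (μ := volume) hdis fun x _ => hDm.const_vadd x
  simp only [measure_vadd, sum_const, nsmul_eq_mul] at h1
  have h2 : (⋃ x ∈ hfin.toFinset, x +ᵥ D) ⊆ {x : E n | ∀ i, |x i| ≤ R + c} := by
    intro w hw i
    obtain ⟨x, hx, d, hd, rfl⟩ := Set.mem_iUnion₂.1 hw
    have e1 := (hfin.mem_toFinset.1 hx).1 i
    have e2 : |d i| ≤ c := (PiLp.norm_apply_le d i).trans (hc d hd)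
    simp only [vadd_eq_add, PiLp.add_apply]
    exact (abs_add_le _ _).trans (add_le_add e1 e2)
  have h3 := measure_mono (μ := volume) h2
  rw [h1, vol_cube (by linarith)] at h3
  have h4 := ENNReal.toReal_mono ENNReal.ofReal_ne_top h3
  rw [ENNReal.toReal_mul, ENNReal.toReal_natCast, ENNReal.toReal_ofReal (by positivity)] at h4
  rw [hcov]
  exact h4

theorem lower_density (n : ℕ) (hl : 2 ^ 50 ≤ Real.log n) :
    ∃ K : Set (E n), IsCompact K ∧ Convex ℝ K ∧ (interior K).Nonempty ∧
      (∀ X : Set (E n), (∀ B : Set (E n), Bornology.IsBounded B → (X ∩ B).Finite) →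
        K + X = Set.univ → ENNReal.ofReal (c0 * (n * Real.log n)) ≤ volume K *
          limsup (fun R : ℝ => ((X ∩ {x : E n | ∀ i, |x i| ≤ R}).encard : ℝ≥0∞) /
            ENNReal.ofReal ((2 * R) ^ n)) atTop) ∧
      ∀ (L : Submodule ℤ (E n)) [DiscreteTopology L] [IsZLattice ℝ L],
        K + (L : Set (E n)) = Set.univ → ENNReal.ofReal (c0 * (n * Real.log n)) ≤
          volume K / ENNReal.ofReal (ZLattice.covolume L) := by
  obtain ⟨K, hK1, hK2, hK3, hKv, a, ha, hK⟩ := exists_body n hl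
  have hom := om_pos n
  have hθ : 0 < c0 * (n * Real.log n) := by
    obtain ⟨h1, -, -, -⟩ := log_facts hl
    have := c0_pos
    have : 0 < Real.log n := by linarith
    have : (0 : ℝ) < n := by linarith
    positivity
  generalize c0 * (n * Real.log n) = θ at *
  have hKv' : ENNReal.ofReal (om n / 2) ≤ volume K :=
    (ENNReal.ofReal_le_iff_le_toReal hK1.measure_lt_top.ne).2 hKv
  refine ⟨K, hK1, hK2, hK3, fun X hX hc => ?_, fun L _ _ hc => ?_⟩
  · have h1 : ENNReal.ofReal (2 * θ / om n) ≤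
        limsup (fun R : ℝ => ((X ∩ {x : E n | ∀ i, |x i| ≤ R}).encard : ℝ≥0∞) /
            ENNReal.ofReal ((2 * R) ^ n)) atTop := by
      refine le_limsup_of_frequently_le ?_
      have ht : Tendsto (fun M : ℕ => a * M + 2) atTop atTop :=
        tendsto_atTop_add_const_right _ _ (tendsto_natCast_atTop_atTop.const_mul_atTop ha)
      refine ht.frequently (Eventually.frequently ?_)
      filter_upwards [window_le (n := n) ha (show (0 : ℝ) ≤ 2 by norm_num)] with M hM
      have hfin := hX _ (cube_bounded (a * M + 2))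
      have e1 := hK X hc M hfin.toFinset fun τ h1 h2 => hfin.mem_toFinset.2 ⟨h1, h2⟩
      have hpos : 0 < (2 * (a * M + 2)) ^ n := by positivity
      rw [hfin.encard_eq_coe_toFinset_card, ENat.toENNReal_coe,
        ENNReal.le_div_iff_mul_le (Or.inl (by simpa using hpos)) (Or.inl ENNReal.ofReal_ne_top),
        ← ENNReal.ofReal_mul (by positivity), ← ENNReal.ofReal_natCast]
      refine ENNReal.ofReal_le_ofReal ?_
      rw [div_mul_eq_mul_div, div_le_iff₀ hom]
      nlinarith
    calc ENNReal.ofReal θ = ENNReal.ofReal (om n / 2) * ENNReal.ofReal (2 * θ / om n) := by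
          rw [← ENNReal.ofReal_mul (by positivity)]; congr 1; field_simp
      _ ≤ _ := mul_le_mul' hKv' h1
  · obtain ⟨c, hc0, hL⟩ := lattice_count L
    obtain ⟨M, hM⟩ := (window_le (n := n) ha (show (0 : ℝ) ≤ 2 + c by linarith)).exists
    obtain ⟨F, hF1, hF2⟩ := hL (a * M + 2) (by positivity)
    have e1 := hK L hc M F hF1
    have hcov := ZLattice.covolume_pos L volume
    rw [ENNReal.le_div_iff_mul_le (Or.inl (by simpa using hcov)) (Or.inl ENNReal.ofReal_ne_top),
      ← ENNReal.ofReal_mul hθ.le]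
    refine (ENNReal.ofReal_le_ofReal ?_).trans hKv'
    rw [add_assoc] at hF2
    have hA : 0 < a ^ n * (2 * (M : ℝ) + 1) ^ n := by positivity
    generalize a ^ n * (2 * (M : ℝ) + 1) ^ n = A at *
    have e2 := mul_le_mul_of_nonneg_right e1.le hcov.le
    have e3 := mul_le_mul_of_nonneg_right (hF2.trans hM) hom.le
    refine le_of_mul_le_mul_right ?_ hA
    linarith

end Vale.Agent.P230
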