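import Mathlib

/-! The grid `a ℤ^n` in Euclidean space, and counting grid points by volume. -/

namespace Vale.Agent.P230

open Finset MeasureTheory Metric

/-- Euclidean space. -/
abbrev E (n : ℕ) := EuclideanSpace ℝ (Fin n)

/-- Integer points. -/
abbrev Γ (n : ℕ) := Fin n → ℤ

variable {n : ℕ}

/-- The grid point `a g`. -/
noncomputable def emb (a : ℝ) (g : Γ n) : E n := WithLp.toLp 2 fun i => a * g i

/-- Rounding to the grid. -/
noncomputable def qz (a : ℝ) (y : E n) : Γ n := fun i => ⌊y i / a⌋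

theorem emb_apply (a : ℝ) (g : Γ n) (i : Fin n) : emb a g i = a * g i := rfl

theorem emb_sub (a : ℝ) (g h : Γ n) : emb a (g - h) = emb a g - emb a h := by
  ext i; simp [emb_apply]; ring

theorem emb_add (a : ℝ) (g h : Γ n) : emb a (g + h) = emb a g + emb a h := by
  ext i; simp [emb_apply]; ring

theorem emb_zero (a : ℝ) : emb a (0 : Γ n) = 0 := by
  ext i; simp [emb_apply]

theorem norm_emb_qz {a : ℝ} (ha : 0 < a) (y : E n) : ‖emb a (qz a y) - y‖ ≤ a * n := by
  rw [EuclideanSpace.norm_eq, Real.sqrt_le_iff]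
  refine ⟨by positivity, ?_⟩
  have h : ∀ i ∈ (univ : Finset (Fin n)), ‖(emb a (qz a y) - y) i‖ ^ 2 ≤ a ^ 2 := by
    intro i _
    have h1 := Int.floor_le (y i / a)
    have h2 := Int.lt_floor_add_one (y i / a)
    rw [le_div_iff₀ ha] at h1
    rw [div_lt_iff₀ ha] at h2
    rw [Real.norm_eq_abs, sq_abs, PiLp.sub_apply, emb_apply]
    simp only [qz]
    nlinarith
  refine (sum_le_sum h).trans ?_
  rw [sum_const, card_univ, Fintype.card_fin, nsmul_eq_mul]
  have : (n : ℝ) ≤ (n : ℝ) ^ 2 := by exact_mod_cast Nat.le_self_pow two_ne_zero n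
  nlinarith [sq_nonneg a]

theorem cell_eq {a : ℝ} (ha : 0 < a) (g : Γ n) :
    qz a ⁻¹' {g} = (WithLp.ofLp : E n → Fin n → ℝ) ⁻¹'
      (Set.pi Set.univ fun i => Set.Ico (a * g i) (a * g i + a)) := by
  ext y
  simp only [Set.mem_preimage, Set.mem_singleton_iff, Set.mem_pi, Set.mem_univ, true_imp_iff,
    Set.mem_Ico, funext_iff, qz, Int.floor_eq_iff]
  refine forall_congr' fun i => ?_
  rw [le_div_iff₀ ha, div_lt_iff₀ ha]
  constructor <;> rintro ⟨h1, h2⟩ <;> constructor <;> linarith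

theorem cell_meas {a : ℝ} (ha : 0 < a) (g : Γ n) : MeasurableSet (qz a ⁻¹' {g}) := by
  rw [cell_eq ha]
  exact (PiLp.volume_preserving_ofLp (Fin n)).measurable
    (MeasurableSet.univ_pi fun i => measurableSet_Ico)

theorem vol_cell {a : ℝ} (ha : 0 < a) (g : Γ n) :
    volume (qz a ⁻¹' {g}) = ENNReal.ofReal (a ^ n) := by
  rw [cell_eq ha, (PiLp.volume_preserving_ofLp (Fin n)).measure_preimage
    (MeasurableSet.univ_pi fun i => measurableSet_Ico).nullMeasurableSet, Real.volume_pi_Ico]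
  simp [ENNReal.ofReal_pow ha.le]

theorem vol_cells {a : ℝ} (ha : 0 < a) (G : Finset (Γ n)) :
    volume (qz a ⁻¹' (G : Set (Γ n))) = ENNReal.ofReal (G.card * a ^ n) := by
  rw [← sum_measure_preimage_singleton G fun g _ => cell_meas ha g]
  simp only [vol_cell ha, sum_const, nsmul_eq_mul]
  rw [ENNReal.ofReal_mul (by positivity), ENNReal.ofReal_natCast]

theorem count_le {a : ℝ} (ha : 0 < a) (G : Finset (Γ n)) (S : Set (E n)) (hS : volume S ≠ ⊤)
    (h : ∀ g ∈ G, ∀ y, ‖emb a g - y‖ ≤ a * n → y ∈ S) :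
    G.card * a ^ n ≤ volume.real S := by
  have h1 : qz a ⁻¹' (G : Set (Γ n)) ⊆ S := fun y hy => h _ hy y (norm_emb_qz ha y)
  have h2 := measureReal_mono h1 hS
  rwa [Measure.real, vol_cells ha, ENNReal.toReal_ofReal (by positivity)] at h2

theorem le_count {a : ℝ} (ha : 0 < a) (G : Finset (Γ n)) (S : Set (E n))
    (h : ∀ y ∈ S, ∀ g, ‖emb a g - y‖ ≤ a * n → g ∈ G) :
    volume.real S ≤ G.card * a ^ n := by
  have h1 : S ⊆ qz a ⁻¹' (G : Set (Γ n)) := fun y hy => h y hy _ (norm_emb_qz ha y)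
  have h2 := measureReal_mono (μ := volume) h1 (by rw [vol_cells ha]; exact ENNReal.ofReal_ne_top)
  rwa [Measure.real, Measure.real, vol_cells ha, ENNReal.toReal_ofReal (by positivity)] at h2

/-- Volume of the unit ball. -/
noncomputable def om (n : ℕ) : ℝ := volume.real (closedBall (0 : E n) 1)

theorem om_pos (n : ℕ) : 0 < om n :=
  ENNReal.toReal_pos (measure_closedBall_pos volume _ one_pos).ne' measure_closedBall_lt_top.ne

theorem vol_ball (x : E n) {r : ℝ} (hr : 0 ≤ r) :
    volume.real (closedBall x r) = r ^ n * om n := by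
  rw [Measure.addHaar_real_closedBall' volume x hr, finrank_euclideanSpace_fin, om]

open Classical in
/-- Grid points in the ball of radius `r`. -/
noncomputable def gb (n : ℕ) (a r : ℝ) : Finset (Γ n) :=
  (Fintype.piFinset fun _ => Icc (-⌈r / a⌉) ⌈r / a⌉).filter fun g => ‖emb a g‖ ≤ r

theorem mem_gb {a r : ℝ} (ha : 0 < a) {g : Γ n} : g ∈ gb n a r ↔ ‖emb a g‖ ≤ r := by
  classical
  unfold gb
  rw [mem_filter, and_iff_right_iff_imp, Fintype.mem_piFinset]
  intro h i
  have h1 : |a * g i| ≤ r := by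
    have := EuclideanSpace.norm_eq (emb a g)
    exact le_trans (PiLp.norm_apply_le (emb a g) i) h
  have h2 := Int.le_ceil (r / a)
  rw [div_le_iff₀ ha] at h2
  rw [abs_le] at h1
  rw [mem_Icc]
  constructor
  · have : (-(⌈r / a⌉ : ℝ)) ≤ g i := by
      by_contra hc
      push Not at hc
      nlinarith
    exact_mod_cast this
  · have : (g i : ℝ) ≤ ⌈r / a⌉ := by
      by_contra hc
      push Not at hc
      nlinarith
    exact_mod_cast this

theorem gb_card_le_pow {a r : ℝ} (m : ℕ) (h : r / a ≤ m) :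
    (gb n a r).card ≤ (2 * m + 1) ^ n := by
  classical
  refine (card_filter_le _ _).trans ?_
  rw [Fintype.card_piFinset, prod_const, card_univ, Fintype.card_fin]
  refine Nat.pow_le_pow_left ?_ n
  have : ⌈r / a⌉ ≤ m := Int.ceil_le.2 (by exact_mod_cast h)
  rw [Int.card_Icc]
  omega

theorem gb_upper {a r : ℝ} (ha : 0 < a) (hr : 0 ≤ r) :
    (gb n a r).card * a ^ n ≤ (r + a * n) ^ n * om n := by
  rw [← vol_ball (0 : E n) (by positivity)]
  refine count_le ha _ _ measure_closedBall_lt_top.ne fun g hg y hy => ?_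
  rw [mem_gb ha] at hg
  rw [mem_closedBall_zero_iff]
  have := norm_sub_norm_le y (emb a g)
  rw [norm_sub_rev] at this
  linarith

theorem gb_lower {a r : ℝ} (ha : 0 < a) (hr : a * n ≤ r) :
    (r - a * n) ^ n * om n ≤ (gb n a r).card * a ^ n := by
  rw [← vol_ball (0 : E n) (by linarith)]
  refine le_count ha _ _ fun y hy g hg => ?_
  rw [mem_gb ha]
  rw [mem_closedBall_zero_iff] at hy
  have := norm_sub_norm_le (emb a g) y
  linarith

theorem card_near_le {a r : ℝ} (ha : 0 < a) (S : Finset (Γ n)) (c : Γ n)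
    (h : ∀ x ∈ S, ‖emb a (x - c)‖ ≤ r) : S.card ≤ (gb n a r).card := by
  refine card_le_card_of_injOn (fun x => x - c) (fun x hx => ?_) fun x _ y _ hxy => ?_
  · exact mem_coe.2 ((mem_gb ha).2 (h x hx))
  · exact sub_left_injective hxy

theorem cell_le_om {a : ℝ} (ha : 0 < a) : a ^ n ≤ (a * n) ^ n * om n := by
  have h1 := gb_upper (n := n) ha le_rfl
  have h2 : 0 < (gb n a 0).card := card_pos.2 ⟨0, (mem_gb ha).2 (by simp [emb_zero])⟩
  have h3 : (1 : ℝ) ≤ (gb n a 0).card := by exact_mod_cast h2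
  rw [zero_add] at h1
  have : 0 < a ^ n := by positivity
  nlinarith

end Vale.Agent.P230
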