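import Vale.Agent.P230.Select

/-! Choice of the parameters. -/

namespace Vale.Agent.P230

open Finset MeasureTheory Metric
open scoped RealInnerProductSpace Pointwise

theorem cube_le_two_pow (n : ℕ) (hn : 15 ≤ n) : 8 * n ^ 3 ≤ 2 ^ n := by
  induction n, hn using Nat.le_induction with
  | base => norm_num
  | succ k hk ih =>
    rw [pow_succ 2]
    have : (k + 1) ^ 3 ≤ 2 * k ^ 3 := by
      have h1 : 15 * k ^ 2 ≤ k ^ 3 := by nlinarith
      have h2 : 15 * k ≤ k ^ 2 := by nlinarith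
      nlinarith
    omega

theorem exp_half_le {x : ℝ} (h0 : 0 ≤ x) (h1 : x ≤ 1) (n : ℕ) :
    Real.exp (n * (x / 2)) ≤ (1 + x) ^ n := by
  rw [Real.exp_nat_mul]
  refine pow_le_pow_left₀ (Real.exp_pos _).le ?_ n
  have h2 := Real.add_one_le_exp (-(x / 2))
  have h3 : Real.exp (x / 2) * Real.exp (-(x / 2)) = 1 := by rw [← Real.exp_add]; simp
  have h4 := Real.exp_pos (x / 2)
  have h5 : Real.exp (x / 2) * (1 - x / 2) ≤ 1 := by nlinarith
  have h6 : 1 ≤ (1 + x) * (1 - x / 2) := by nlinarith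
  exact le_of_mul_le_mul_right (h5.trans h6) (by linarith)

theorem num_union (n : ℕ) (hn : 15 ≤ n) (N : ℕ) (hN : N ≤ (2 * (3 * n ^ 3) + 1) ^ n) :
    ((N : ℝ) + 1) ^ (8 ^ n) * (3 / 4) ^ (4 * 16 ^ n) ≤ 1 / 2 := by
  have h0 := cube_le_two_pow n hn
  have h1 : 1 ≤ n ^ 3 := Nat.one_le_pow _ _ (by omega)
  have h2 : (2 * (3 * n ^ 3) + 1) ^ n < (2 ^ n) ^ n := Nat.pow_lt_pow_left (by omega) (by omega)
  have h3 : n * n ≤ 2 ^ n := by nlinarith
  have h4 : N + 1 ≤ 2 ^ 2 ^ n := by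
    rw [← pow_mul] at h2
    have := Nat.pow_le_pow_right (show 0 < 2 by norm_num) h3
    omega
  have h5 : ((N : ℝ) + 1) ≤ 2 ^ 2 ^ n := by exact_mod_cast h4
  have h6 : ((N : ℝ) + 1) ^ (8 ^ n) ≤ 2 ^ (16 ^ n) := by
    refine (pow_le_pow_left₀ (by positivity) h5 _).trans (le_of_eq ?_)
    rw [← pow_mul, ← mul_pow, show (2 * 8 : ℕ) = 16 from rfl]
  have h7 : 2 ≤ 16 ^ n := by
    have := Nat.pow_le_pow_right (show 0 < 16 by norm_num) (show 1 ≤ n by omega)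
    omega
  calc _ ≤ (2 : ℝ) ^ (16 ^ n) * (3 / 4) ^ (4 * 16 ^ n) :=
        mul_le_mul_of_nonneg_right h6 (by positivity)
    _ = (81 / 128) ^ (16 ^ n) := by rw [pow_mul, ← mul_pow]; norm_num
    _ ≤ (81 / 128) ^ 2 := pow_le_pow_of_le_one (by norm_num) (by norm_num) h7
    _ ≤ _ := by norm_num

theorem num_L (n : ℕ) (hn : 15 ≤ n) :
    ((4 * 16 ^ n : ℕ) : ℝ) * (((8 ^ n : ℕ) : ℝ) ^ 2 * (3 * (1 / 2 ^ 13)) ^ n) ≤ 1 / 8 := by
  have h1 : ((4 * 16 ^ n : ℕ) : ℝ) * (((8 ^ n : ℕ) : ℝ) ^ 2 * (3 * (1 / 2 ^ 13)) ^ n) =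
      4 * (3 / 8) ^ n := by
    push_cast
    rw [← pow_mul, mul_comm n 2, pow_mul, mul_assoc, ← mul_pow, ← mul_pow]
    norm_num
  rw [h1]
  have := pow_le_pow_of_le_one (a := (3 / 8 : ℝ)) (by norm_num) (by norm_num)
    (show 4 ≤ n by omega)
  norm_num at this ⊢
  linarith

theorem num_near (n : ℕ) (hn : 1 ≤ n) {l : ℝ} (hl : 2 ^ 50 ≤ l) :
    ((8 ^ n : ℕ) : ℝ) ^ 2 * (2 * Real.exp (-(l / 4))) ^ n * Real.exp (n * (l / 8)) ≤
      (1 / 2 ^ 13 / 6) ^ n / 8 := by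
  have h1 : ((8 ^ n : ℕ) : ℝ) ^ 2 * (2 * Real.exp (-(l / 4))) ^ n * Real.exp (n * (l / 8)) =
      (128 * Real.exp (-(l / 8))) ^ n := by
    push_cast
    rw [← pow_mul, mul_comm n 2, pow_mul, Real.exp_nat_mul, ← mul_pow, ← mul_pow]
    congr 1
    have : Real.exp (-(l / 8)) = Real.exp (-(l / 4)) * Real.exp (l / 8) := by
      rw [← Real.exp_add]; congr 1; ring
    rw [this]; ring
  have h2 : 128 * Real.exp (-(l / 8)) ≤ 1 / 2 ^ 13 / 6 * (1 / 8) := by
    have h3 := Real.add_one_le_exp (l / 8)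
    rw [Real.exp_neg, ← div_eq_mul_inv, div_le_iff₀ (Real.exp_pos _)]
    linarith
  rw [h1]
  refine (pow_le_pow_left₀ (by positivity) h2 n).trans ?_
  rw [mul_pow, div_eq_mul_one_div _ (8 : ℝ)]
  refine mul_le_mul_of_nonneg_left ?_ (by positivity)
  have := pow_le_pow_of_le_one (a := (1 / 8 : ℝ)) (by norm_num) (by norm_num) hn
  simpa using this

/-- The constant in the lower bound. -/
noncomputable def c0 : ℝ := 1 / (1536 * 13 * 2 ^ 30)

theorem c0_pos : 0 < c0 := by unfold c0; positivity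

theorem log_facts {n : ℕ} (hl : 2 ^ 50 ≤ Real.log n) :
    (2 : ℝ) ^ 50 ≤ n ∧ Real.log n ≤ n ∧ Real.exp (Real.log n) = n ∧ 15 ≤ n := by
  have hn0 : (0 : ℝ) < n := by
    rcases Nat.eq_zero_or_pos n with h | h
    · rw [h] at hl; norm_num at hl
    · exact_mod_cast h
  have hexp : Real.exp (Real.log n) = n := Real.exp_log hn0
  have hln : Real.log n ≤ n := by linarith [Real.add_one_le_exp (Real.log n)]
  refine ⟨hl.trans hln, hln, hexp, ?_⟩
  have : (15 : ℝ) ≤ n := by linarith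
  exact_mod_cast this

theorem theta_le {n : ℕ} (hl : 2 ^ 50 ≤ Real.log n) :
    192 * (c0 * (n * Real.log n)) ≤ (n : ℝ) ^ 2 := by
  obtain ⟨h1, h2, -, -⟩ := log_facts hl
  have : 192 * c0 ≤ 1 := by unfold c0; norm_num
  have h3 : 0 ≤ n * Real.log n := mul_nonneg (by linarith) (by linarith)
  have h4 : n * Real.log n ≤ (n : ℝ) ^ 2 := by nlinarith
  nlinarith

theorem num_k {n : ℕ} (hl : 2 ^ 50 ≤ Real.log n) (k : ℕ)
    (hk : (2 : ℝ) ^ k ≤ 192 * (c0 * (n * Real.log n))) : (k : ℝ) + 1 ≤ 4 * Real.log n := by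
  have e1 : Real.log (2 ^ k) ≤ Real.log ((n : ℝ) ^ 2) :=
    Real.log_le_log (by positivity) (hk.trans (theta_le hl))
  rw [Real.log_pow, Real.log_pow] at e1
  have e2 := Real.log_two_gt_d9
  have e3 : (0 : ℝ) ≤ k := Nat.cast_nonneg k
  push_cast at e1
  nlinarith

theorem num_q {n : ℕ} (hl : 2 ^ 50 ≤ Real.log n) :
    2 ^ 47 * Real.log n ≤ n * Real.exp (-(Real.log n / 4)) ^ 2 ∧
      Real.exp (-(Real.log n / 4)) ≤ 1 := by
  obtain ⟨-, -, hexp, -⟩ := log_facts hl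
  generalize Real.log n = l at *
  have h1 : n * Real.exp (-(l / 4)) ^ 2 = Real.exp (l / 2) := by
    rw [← hexp, sq, ← Real.exp_add, ← Real.exp_add]; congr 1; ring
  refine ⟨?_, Real.exp_le_one_iff.2 (by linarith)⟩
  rw [h1]
  have := Real.quadratic_le_exp_of_nonneg (x := l / 2) (by linarith)
  nlinarith

theorem num_far {n : ℕ} (hl : 2 ^ 50 ≤ Real.log n) :
    (192 * (c0 * (n * Real.log n))) ^ 2 * Real.exp (13 / (1 / 2 ^ 30) * (4 * Real.log n)) ^ 2 ≤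
      (1 + Real.exp (-(Real.log n / 4)) ^ 2 / 128) ^ n := by
  obtain ⟨h1, -, hexp, -⟩ := log_facts hl
  obtain ⟨h2, h3⟩ := num_q hl
  have h4 := theta_le hl
  have hΘ : 0 ≤ 192 * (c0 * (n * Real.log n)) := by
    have := c0_pos
    have : 0 ≤ Real.log n := by linarith
    positivity
  have h5 := Real.exp_pos (-(Real.log n / 4))
  generalize Real.exp (-(Real.log n / 4)) = r at *
  generalize 192 * (c0 * (n * Real.log n)) = Θ at *
  generalize Real.log n = l at *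
  refine le_trans ?_ (exp_half_le (by positivity) (by nlinarith) n)
  have e1 : Θ ^ 2 ≤ Real.exp (4 * l) := by
    have : Real.exp (4 * l) = ((n : ℝ) ^ 2) ^ 2 := by
      rw [show 4 * l = (4 : ℕ) * l by norm_num, Real.exp_nat_mul, hexp]; ring
    rw [this]
    exact pow_le_pow_left₀ hΘ h4 2
  refine (mul_le_mul_of_nonneg_right e1 (by positivity)).trans ?_
  rw [← Real.exp_nat_mul, ← Real.exp_add]
  refine Real.exp_le_exp.2 ?_
  push_cast
  linarith

theorem cover_prob' {n : ℕ} (hl : 2 ^ 50 ≤ Real.log n) {a V p : ℝ} (ha : 0 < a)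
    (han : a * n = 1 / (n : ℝ) ^ 2) (hδ : a * n * n ≤ 1 / 2) (hV0 : 0 < V)
    (hV : ∀ e : E n, ‖e‖ = 1 → volume.real (cap e (1 - 1 / 2 ^ 30)) = V)
    (hp : p * V * 12 = a ^ n) (hp0 : 0 < p) (hp1 : p ≤ 1) (T : Finset (Γ n))
    (hT : T.card ≤ 8 ^ n)
    (hw : ∑ x ∈ gb n a 1, ∑ t ∈ T, wt a (x - t) ≤
      192 * (c0 * (n * Real.log n)) / 2 * (gb n a 1).card) :
    Ex p (gb n a 1) (covI (Tx a T) (Cx a (1 / 2 ^ 30)) (gb n a 1)) ≤ (3 / 4) ^ (4 * 16 ^ n) := by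
  obtain ⟨h1, h2, hexp, h15⟩ := log_facts hl
  obtain ⟨h3, h4⟩ := num_q hl
  have h5 := Real.exp_pos (-(Real.log n / 4))
  have h6 : Real.exp (-(Real.log n / 4)) ^ 2 ≤ 1 := pow_le_one₀ h5.le h4
  have hn0 : (0 : ℝ) < n := by linarith
  have hδs : a * n ≤ 1 / 2 ^ 50 := by
    rw [han]; exact one_div_le_one_div_of_le (by norm_num) (by nlinarith)
  refine cover_prob (K0 := 4 * Real.log n) (r0 := Real.exp (-(Real.log n / 4)))
    (r1 := 1 / 2 ^ 13) (m0 := ((8 ^ n : ℕ) : ℝ)) (4 * 16 ^ n) ha (by omega) hδ (by positivity)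
    (by norm_num) hV0 hV hp hp0 hp1 ?_ ?_ (num_k hl) h5.le h4 ?_ (num_far hl) (by positivity)
    (by norm_num) (by norm_num) (by linarith) ?_ (num_L n h15) T (by exact_mod_cast hT) hw
  · have := c0_pos
    have : 0 < Real.log n := by linarith
    positivity
  · have := mul_le_mul_of_nonneg_left h6 hn0.le
    linarith
  · rw [han, mul_one_div, div_le_iff₀ (by positivity)]
    nlinarith
  · have : 13 / (1 / 2 ^ 30) * (192 * (c0 * (n * Real.log n))) = n * (Real.log n / 8) := by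
      unfold c0; ring
    rw [this]
    exact num_near n (by omega) hl

theorem exists_body (n : ℕ) (hl : 2 ^ 50 ≤ Real.log n) :
    ∃ K : Set (E n), IsCompact K ∧ Convex ℝ K ∧ (interior K).Nonempty ∧
      om n / 2 ≤ volume.real K ∧ ∃ a : ℝ, 0 < a ∧ ∀ X : Set (E n), K + X = Set.univ →
        ∀ (M : ℕ) (F : Finset (E n)), (∀ τ ∈ X, (∀ i, |τ i| ≤ a * M + 2) → τ ∈ F) →
          4 * (c0 * (n * Real.log n)) * (a ^ n * (2 * M + 1) ^ n) < F.card * om n := by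
  obtain ⟨h1, h2, hexp, h15⟩ := log_facts hl
  have hn0 : (0 : ℝ) < n := by linarith
  have hn : 0 < n := by omega
  obtain ⟨a, had⟩ : ∃ a : ℝ, a = 1 / (n : ℝ) ^ 3 := ⟨_, rfl⟩
  have ha : 0 < a := by rw [had]; positivity
  have han : a * n = 1 / (n : ℝ) ^ 2 := by rw [had]; field_simp
  have hann : a * n * n = 1 / (n : ℝ) := by rw [had]; field_simp
  have hδ : a * n * n ≤ 1 / 2 := by
    rw [hann]; exact one_div_le_one_div_of_le (by norm_num) (by linarith)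
  have hδs : a * n ≤ 1 / 2 ^ 50 := by
    rw [han]; exact one_div_le_one_div_of_le (by norm_num) (by nlinarith)
  obtain ⟨e0, he01⟩ : ∃ e0 : E n, ‖e0‖ = 1 := ⟨EuclideanSpace.single ⟨0, hn⟩ 1, by simp⟩
  obtain ⟨V, hVd⟩ : ∃ V, V = volume.real (cap e0 (1 - 1 / 2 ^ 30)) := ⟨_, rfl⟩
  have hV : ∀ e : E n, ‖e‖ = 1 → volume.real (cap e (1 - 1 / 2 ^ 30)) = V := fun e he =>
    (cap_eq (he.trans he01.symm) _).trans hVd.symm
  have hom := om_pos n
  have hVl : (1 / 2 ^ 30 / 2) ^ n * om n ≤ V :=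
    hVd ▸ cap_vol_lower (by positivity) (by norm_num) he01
  have hV0 : 0 < V := lt_of_lt_of_le (by positivity) hVl
  obtain ⟨p, hpd⟩ : ∃ p, p = a ^ n / (V * 12) := ⟨_, rfl⟩
  have hp : p * V * 12 = a ^ n := by rw [hpd]; field_simp
  have hp0 : 0 < p := by rw [hpd]; positivity
  have hp1 : p ≤ 1 := by
    have e1 := cell_le_om (n := n) ha
    have e2 : (a * n) ^ n ≤ (1 / 2 ^ 30 / 2) ^ n :=
      pow_le_pow_left₀ (by positivity) (hδs.trans (by norm_num)) n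
    have e3 := mul_le_mul_of_nonneg_right e2 hom.le
    rw [hpd, div_le_one (by positivity)]
    linarith
  have hN3 : (gb n a 3).card ≤ (2 * (3 * n ^ 3) + 1) ^ n :=
    gb_card_le_pow _ (le_of_eq (by rw [had]; push_cast; field_simp))
  obtain ⟨ξ, hξ, hξV, hgood⟩ := exists_good (8 ^ n) ha hδ
    hV0 hp hp0 hp1 (by positivity) (num_union n h15 _ hN3)
    (cover_prob' hl ha han hδ hV0 hV hp hp0 hp1)
  have hb : (0 : ℝ) < 1 - 1 / 2 ^ 30 := by norm_num
  have hθ : 0 < c0 * (n * Real.log n) := by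
    have := c0_pos
    have : 0 < Real.log n := by linarith
    positivity
  refine ⟨body a (1 - 1 / 2 ^ 30) ξ, body_compact _ _ _, body_convex _ _ _,
    body_interior ha hb (by norm_num) hξ, ?_, a, ha, fun X hX M F hF => ?_⟩
  · have := body_vol ha hb hV0.le hV hξ
    linarith
  · refine no_thin_window (8 ^ n) ha hn hδ (by positivity) ?_ ξ (fun T hT hTm hw => ?_) X hX M F hF
    · have e1 : ((8 * n ^ 3 : ℕ) : ℝ) ≤ ((2 ^ n : ℕ) : ℝ) := by
        exact_mod_cast cube_le_two_pow n h15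
      push_cast at e1 ⊢
      have e2 : (8 : ℝ) ^ n = 2 ^ n * 4 ^ n := by rw [← mul_pow]; norm_num
      rw [e2]
      refine mul_le_mul_of_nonneg_right ?_ (by positivity)
      have e3 : (n : ℝ) ^ 2 ≤ n ^ 3 := pow_le_pow_right₀ (by linarith) (by norm_num)
      have e4 := theta_le hl
      linarith
    · exact hgood T hT hTm (hw.trans (le_of_eq (by ring)))

end Vale.Agent.P230
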