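import Vale.Agent.P230.Prob

/-! Sequential planting: the density of the planted measure and its second moments. -/

set_option linter.unusedSectionVars false

namespace Vale.Agent.P230

open Finset

variable {α ι : Type*} [DecidableEq α]

/-- Density of the law obtained by planting, in turn, a uniform point in each set `C j`
that is not yet hit. -/
noncomputable def Zp (p : ℝ) (C : ι → Finset α) : List ι → Finset α → ℝ
  | [], _ => 1
  | j :: L, η => (if Disjoint η (C j) then 0 else Zp p C L η) +
      ∑ u ∈ C j, if u ∈ η then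
        (if Disjoint (η.erase u) (C j) then
          (1 - p) / (p * (C j).card) * Zp p C L (η.erase u) else 0) else 0

/-- One planting step, acting on test functions. -/
noncomputable def Sp (c : Finset α) (H : Finset α → ℝ) (η : Finset α) : ℝ :=
  if Disjoint η c then (∑ u ∈ c, H (insert u η)) / c.card else H η

theorem Zp_nonneg {p : ℝ} (hp0 : 0 < p) (hp1 : p ≤ 1) (C : ι → Finset α) :
    ∀ (L : List ι) (η : Finset α), 0 ≤ Zp p C L η
  | [], _ => by simp [Zp]
  | j :: L, η => by
    unfold Zp
    have h1 : 0 ≤ 1 - p := by linarith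
    refine add_nonneg ?_ (sum_nonneg fun u _ => ?_)
    · split_ifs
      · exact le_rfl
      · exact Zp_nonneg hp0 hp1 C L η
    · split_ifs
      · have := Zp_nonneg hp0 hp1 C L (η.erase u)
        positivity
      · exact le_rfl
      · exact le_rfl

theorem Zp_dual {p : ℝ} (hp0 : 0 < p) {U : Finset α} (C : ι → Finset α) (j : ι) (L : List ι)
    (hU : C j ⊆ U) (hne : (C j).Nonempty) (H : Finset α → ℝ) :
    Ex p U (fun η => Zp p C (j :: L) η * H η) =
      Ex p U (fun η => Zp p C L η * Sp (C j) H η) := by
  have hc : (0 : ℝ) < (C j).card := by exact_mod_cast hne.card_pos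
  set F : α → Finset α → ℝ := fun u η =>
    if Disjoint η (C j) then Zp p C L η * H (insert u η) else 0 with hF
  have e1 : ∀ η, Zp p C (j :: L) η * H η =
      (if Disjoint η (C j) then 0 else Zp p C L η * H η) +
        ∑ u ∈ C j, (1 / (p * (C j).card)) * ((1 - p) *
          (if u ∈ η then F u (η.erase u) else 0)) := by
    intro η
    rw [Zp, add_mul, sum_mul]
    congr 1
    · split_ifs <;> simp
    · refine sum_congr rfl fun u _ => ?_
      by_cases hu : u ∈ η
      · simp only [hu, if_true, hF, insert_erase hu]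
        split_ifs
        · field_simp
        · simp
      · simp [hu]
  have e2 : ∀ η, Zp p C L η * Sp (C j) H η =
      (if Disjoint η (C j) then 0 else Zp p C L η * H η) +
        ∑ u ∈ C j, (1 / (p * (C j).card)) * (p * (if u ∈ η then 0 else F u η)) := by
    intro η
    unfold Sp
    by_cases hd : Disjoint η (C j)
    · simp only [hd, if_true, hF, zero_add]
      rw [sum_div, mul_sum]
      refine sum_congr rfl fun u hu => ?_
      rw [if_neg (fun h => disjoint_left.1 hd h hu)]
      field_simp
    · simp [hd, hF]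
  simp only [e1, e2]
  rw [Ex_add, Ex_add, Ex_sum, Ex_sum]
  congr 1
  refine sum_congr rfl fun u hu => ?_
  rw [Ex_mul, Ex_mul, Ex_mul, Ex_mul, Ex_swap p (hU hu)]

theorem Zp_mean {p : ℝ} (hp0 : 0 < p) {U : Finset α} (C : ι → Finset α) :
    ∀ L : List ι, (∀ j ∈ L, C j ⊆ U ∧ (C j).Nonempty) → Ex p U (Zp p C L) = 1
  | [], _ => by
    have : Zp p C [] = fun _ => (1 : ℝ) := rfl
    rw [this, Ex_const]
  | j :: L, h => by
    have hj := h j (by simp)
    have := Zp_dual hp0 C j L hj.1 hj.2 (fun _ => 1)
    have hc : (0 : ℝ) < (C j).card := by exact_mod_cast hj.2.card_pos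
    have h1 : ∀ η, Sp (C j) (fun _ => (1 : ℝ)) η = 1 := by
      intro η
      unfold Sp
      split_ifs
      · simp only [sum_const, nsmul_eq_mul, mul_one]
        field_simp
      · rfl
    simp only [h1, mul_one] at this
    exact this.trans (Zp_mean hp0 C L fun i hi => h i (by simp [hi]))

theorem Zp_support {p : ℝ} (C : ι → Finset α) :
    ∀ (L : List ι) (η : Finset α), (∃ j ∈ L, Disjoint η (C j)) → Zp p C L η = 0
  | [], _, h => by simp at h
  | j :: L, η, h => by
    unfold Zp
    by_cases hd : Disjoint η (C j)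
    · rw [if_pos hd, zero_add]
      exact sum_eq_zero fun u hu => by rw [if_neg (fun h => disjoint_left.1 hd h hu)]
    · obtain ⟨i, hi, hid⟩ := h
      have hiL : i ∈ L := by
        rcases List.mem_cons.1 hi with rfl | h
        · exact absurd hid hd
        · exact h
      rw [if_neg hd, Zp_support C L η ⟨i, hiL, hid⟩, zero_add]
      refine sum_eq_zero fun u _ => ?_
      rw [Zp_support C L (η.erase u) ⟨i, hiL, hid.mono_left (erase_subset u η)⟩]
      simp

theorem Zp_le {p : ℝ} (hp0 : 0 < p) (hp1 : p ≤ 1) (C : ι → Finset α) :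
    ∀ (L : List ι) (η : Finset α),
      Zp p C L η ≤ (L.map fun j => 1 + 1 / (p * (C j).card)).prod
  | [], _ => by simp [Zp]
  | j :: L, η => by
    set B := (L.map fun j => 1 + 1 / (p * (C j).card)).prod with hB
    have hB0 : 0 ≤ B := le_trans (Zp_nonneg hp0 hp1 C L η) (Zp_le hp0 hp1 C L η)
    rw [List.map_cons, List.prod_cons, ← hB, Zp, add_mul, one_mul]
    refine add_le_add ?_ ?_
    · split_ifs
      · exact hB0
      · exact Zp_le hp0 hp1 C L η
    · set A := (C j).filter fun u => u ∈ η ∧ Disjoint (η.erase u) (C j) with hA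
      have hA1 : A.card ≤ 1 := by
        refine card_le_one.2 fun u hu v hv => ?_
        by_contra hne
        rw [hA, mem_filter] at hu hv
        exact disjoint_left.1 hu.2.2 (mem_erase.2 ⟨Ne.symm hne, hv.2.1⟩) hv.1
      have hq : 0 ≤ 1 / (p * (C j).card) * B := by positivity
      calc _ ≤ ∑ u ∈ C j, if u ∈ η ∧ Disjoint (η.erase u) (C j) then
              1 / (p * (C j).card) * B else 0 := by
            refine sum_le_sum fun u _ => ?_
            by_cases h1 : u ∈ η
            · by_cases h2 : Disjoint (η.erase u) (C j)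
              · simp only [h1, h2, and_self, if_true]
                refine mul_le_mul ?_ (Zp_le hp0 hp1 C L _) (Zp_nonneg hp0 hp1 C L _)
                  (by positivity)
                exact div_le_div_of_nonneg_right (by linarith) (by positivity)
              · simp [h1, h2]
            · simp [h1]
        _ = A.card * (1 / (p * (C j).card) * B) := by
            rw [← sum_filter, sum_const, nsmul_eq_mul]
        _ ≤ 1 * (1 / (p * (C j).card) * B) :=
            mul_le_mul_of_nonneg_right (by exact_mod_cast hA1) hq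
        _ = _ := one_mul _

theorem Zp_ins {p : ℝ} (C : ι → Finset α) :
    ∀ L : List ι, Ins (fun u => ∃ j ∈ L, u ∈ C j) (Zp p C L)
  | [] => fun _ _ _ => rfl
  | j :: L => by
    intro η u hu
    have hj : u ∉ C j := fun h => hu ⟨j, by simp, h⟩
    have hL : ¬ ∃ i ∈ L, u ∈ C i := fun ⟨i, hi, h⟩ => hu ⟨i, by simp [hi], h⟩
    have hd : ∀ ζ : Finset α, Disjoint (insert u ζ) (C j) ↔ Disjoint ζ (C j) := fun ζ => by
      rw [disjoint_insert_left]; simp [hj]
    unfold Zp
    rw [Zp_ins C L η u hL]
    simp only [hd]
    congr 1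
    refine sum_congr rfl fun v hv => ?_
    have hvu : v ≠ u := fun h => hj (h ▸ hv)
    have h1 : v ∈ insert u η ↔ v ∈ η := by simp [hvu]
    rw [erase_insert_of_ne hvu.symm, Zp_ins C L _ u hL]
    simp only [h1, hd]

theorem prod_add_lower (s : Finset α) (a d : α → ℝ) (ha : ∀ v, 0 ≤ a v) (hd : ∀ v, 0 ≤ d v) :
    ∏ v ∈ s, a v + ∑ u ∈ s, d u * ∏ v ∈ s.erase u, a v ≤ ∏ v ∈ s, (a v + d v) := by
  induction s using Finset.induction_on with
  | empty => simp
  | insert x s hx ih =>
    rw [prod_insert hx, prod_insert hx, sum_insert hx, erase_insert hx]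
    have h1 : ∑ u ∈ s, d u * ∏ v ∈ (insert x s).erase u, a v =
        a x * ∑ u ∈ s, d u * ∏ v ∈ s.erase u, a v := by
      rw [mul_sum]
      refine sum_congr rfl fun u hu => ?_
      have hne : x ≠ u := fun h => hx (h ▸ hu)
      rw [erase_insert_of_ne hne, prod_insert (fun h => hx (mem_of_mem_erase h))]
      ring
    rw [h1]
    have h2 : 0 ≤ ∑ u ∈ s, d u * ∏ v ∈ s.erase u, a v :=
      sum_nonneg fun u _ => mul_nonneg (hd u) (prod_nonneg fun v _ => ha v)
    have h3 := mul_le_mul_of_nonneg_left ih (add_nonneg (ha x) (hd x))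
    have h4 := mul_nonneg (hd x) h2
    nlinarith

/-- Total planting intensity at a point. -/
noncomputable def dL (p : ℝ) (C : ι → Finset α) (L : List ι) (v : α) : ℝ :=
  (L.map fun j => if v ∈ C j then 1 / (p * (C j).card) else 0).sum

theorem dL_nonneg {p : ℝ} (hp0 : 0 < p) (C : ι → Finset α) (L : List ι) (v : α) :
    0 ≤ dL p C L v := by
  refine List.sum_nonneg fun x hx => ?_
  obtain ⟨j, _, rfl⟩ := List.mem_map.1 hx
  split_ifs
  · positivity
  · exact le_rfl

theorem Zp_marginal {p : ℝ} (hp0 : 0 < p) (hp1 : p ≤ 1) {U : Finset α} (C : ι → Finset α)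
    (D : α → Prop) [DecidablePred D] :
    ∀ L : List ι, (∀ j ∈ L, C j ⊆ U ∧ (C j).Nonempty) → ∀ H : Finset α → ℝ,
      (∀ η, 0 ≤ H η) → Ins D H →
      Ex p U (fun η => Zp p C L η * H η) ≤
        Ex p U (fun η => (∏ v ∈ η, (1 + if D v then dL p C L v else 0)) * H η)
  | [], _, H, _, _ => by
    refine le_of_eq (Ex_congr p fun η _ => ?_)
    simp [Zp, dL]
  | j :: L, h, H, hH, hI => by
    have hj := h j (by simp)
    have hc : (0 : ℝ) < (C j).card := by exact_mod_cast hj.2.card_pos
    set a : α → ℝ := fun v => 1 + if D v then dL p C L v else 0 with ha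
    set d : α → ℝ := fun v => if D v ∧ v ∈ C j then 1 / (p * (C j).card) else 0 with hd
    have ha0 : ∀ v, 0 ≤ a v := fun v => by
      have := dL_nonneg hp0 C L v
      simp only [ha]; split_ifs <;> linarith
    have hd0 : ∀ v, 0 ≤ d v := fun v => by
      simp only [hd]; split_ifs
      · positivity
      · exact le_rfl
    set K : α → Finset α → ℝ := fun u η => if u ∈ η then 0 else H (insert u η) with hK
    have hK0 : ∀ u η, 0 ≤ K u η := fun u η => by
      simp only [hK]; split_ifs
      · exact le_rfl
      · exact hH _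
    set H' : Finset α → ℝ := fun η =>
      H η + ∑ u ∈ (C j).filter D, 1 / ((C j).card : ℝ) * K u η with hH'
    have hH'0 : ∀ η, 0 ≤ H' η := fun η =>
      add_nonneg (hH η) (sum_nonneg fun u _ => mul_nonneg (by positivity) (hK0 u η))
    have hI' : Ins D H' := by
      intro η w hw
      simp only [hH', hI η w hw]
      congr 1
      refine sum_congr rfl fun u hu => ?_
      have hne : u ≠ w := fun h => hw (h ▸ (mem_filter.1 hu).2)
      simp only [hK, mem_insert, hne, false_or]
      rw [Finset.insert_comm, hI _ w hw]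
    have hS : ∀ η, Sp (C j) H η ≤ H' η := by
      intro η
      unfold Sp
      split_ifs with hdis
      · have e : ∀ u ∈ C j, H (insert u η) ≤ H η + if D u then K u η else 0 := by
          intro u hu
          by_cases hD : D u
          · simp only [hD, if_true, hK, if_neg (fun h => disjoint_left.1 hdis h hu)]
            linarith [hH η]
          · simp [hD, hI η u hD]
        have := sum_le_sum e
        rw [sum_add_distrib, sum_const, nsmul_eq_mul, ← sum_filter] at this
        simp only [hH']
        rw [← mul_sum, div_le_iff₀ hc]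
        have e2 : (H η + 1 / ((C j).card : ℝ) * ∑ u ∈ (C j).filter D, K u η) * (C j).card =
            (C j).card * H η + ∑ u ∈ (C j).filter D, K u η := by field_simp
        rw [e2]; exact this
      · exact le_add_of_nonneg_right
          (sum_nonneg fun u _ => mul_nonneg (by positivity) (hK0 u η))
    rw [Zp_dual hp0 C j L hj.1 hj.2 H]
    have s1 : Ex p U (fun η => Zp p C L η * Sp (C j) H η) ≤
        Ex p U (fun η => Zp p C L η * H' η) :=
      Ex_mono hp0.le hp1 fun η _ => mul_le_mul_of_nonneg_left (hS η) (Zp_nonneg hp0 hp1 C L η)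
    have s2 := Zp_marginal hp0 hp1 C D L (fun i hi => h i (by simp [hi])) H' hH'0 hI'
    refine s1.trans (s2.trans ?_)
    set G : α → Finset α → ℝ := fun u η => (∏ v ∈ η, a v) * H (insert u η) with hG
    have e3 : ∀ η, (∏ v ∈ η, a v) * H' η = (∏ v ∈ η, a v) * H η +
        ∑ u ∈ (C j).filter D, 1 / (p * (C j).card) * (p * if u ∈ η then 0 else G u η) := by
      intro η
      simp only [hH', mul_add, mul_sum]
      congr 1
      refine sum_congr rfl fun u _ => ?_
      simp only [hK, hG]
      split_ifs
      · simp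
      · field_simp
    have s3 : Ex p U (fun η => (∏ v ∈ η, a v) * H' η) =
        Ex p U (fun η => (∏ v ∈ η, a v) * H η + ∑ u ∈ (C j).filter D,
          1 / (p * (C j).card) * ((1 - p) * if u ∈ η then G u (η.erase u) else 0)) := by
      simp only [e3]
      rw [Ex_add, Ex_add, Ex_sum, Ex_sum]
      congr 1
      refine sum_congr rfl fun u hu => ?_
      rw [Ex_mul, Ex_mul, Ex_mul, Ex_mul, Ex_swap p (hj.1 (mem_filter.1 hu).1)]
    refine s3.le.trans (Ex_mono hp0.le hp1 fun η _ => ?_)
    have e4 : ∀ v, (1 + if D v then dL p C (j :: L) v else 0) = a v + d v := by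
      intro v
      simp only [ha, hd, dL, List.map_cons, List.sum_cons]
      by_cases hD : D v
      · simp only [hD, if_true, true_and]; ring
      · simp [hD]
    simp only [e4]
    refine le_trans ?_ (mul_le_mul_of_nonneg_right (prod_add_lower η a d ha0 hd0) (hH η))
    rw [add_mul, sum_mul]
    refine add_le_add le_rfl ?_
    have e5 : ∑ u ∈ (C j).filter D, 1 / (p * (C j).card) *
        ((1 - p) * if u ∈ η then G u (η.erase u) else 0) =
        ∑ u ∈ ((C j).filter D).filter (· ∈ η),
          1 / (p * (C j).card) * ((1 - p) * G u (η.erase u)) := by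
      rw [sum_filter (s := (C j).filter D)]
      refine sum_congr rfl fun u _ => ?_
      split_ifs <;> simp
    rw [e5]
    have hsub : ((C j).filter D).filter (· ∈ η) ⊆ η := fun u hu => (mem_filter.1 hu).2
    refine le_trans (sum_le_sum fun u hu => ?_)
      (sum_le_sum_of_subset_of_nonneg hsub fun u _ _ =>
        mul_nonneg (mul_nonneg (hd0 u) (prod_nonneg fun v _ => ha0 v)) (hH η))
    obtain ⟨h1, h2⟩ := mem_filter.1 hu
    obtain ⟨h3, h4⟩ := mem_filter.1 h1
    simp only [hG, hd, insert_erase h2, h3, h4, and_self, if_true]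
    have h5 : 0 ≤ (∏ v ∈ η.erase u, a v) * H η :=
      mul_nonneg (prod_nonneg fun v _ => ha0 v) (hH η)
    have h6 : 0 ≤ 1 / (p * (C j).card) := by positivity
    rw [mul_assoc]
    exact mul_le_mul_of_nonneg_left (by nlinarith) h6

end Vale.Agent.P230
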