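import Mathlib

/-! Bernoulli random subsets of a finite set, and sequential planting. -/

set_option linter.unusedSectionVars false

namespace Vale.Agent.P230

open Finset

variable {α : Type*} [DecidableEq α]

/-- Expectation of `F` under the random subset of `U` with inclusion probability `p`. -/
noncomputable def Ex (p : ℝ) (U : Finset α) (F : Finset α → ℝ) : ℝ :=
  ∑ η ∈ U.powerset, p ^ η.card * (1 - p) ^ (U.card - η.card) * F η

theorem Ex_empty (p : ℝ) (F : Finset α → ℝ) : Ex p ∅ F = F ∅ := by
  simp [Ex]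

theorem Ex_insert (p : ℝ) {U : Finset α} {a : α} (ha : a ∉ U) (F : Finset α → ℝ) :
    Ex p (insert a U) F = (1 - p) * Ex p U F + p * Ex p U (fun η => F (insert a η)) := by
  unfold Ex
  rw [sum_powerset_insert ha, mul_sum, mul_sum]
  congr 1
  · refine sum_congr rfl fun η hη => ?_
    have h1 : η.card ≤ U.card := card_le_card (mem_powerset.1 hη)
    rw [card_insert_of_notMem ha, show U.card + 1 - η.card = (U.card - η.card) + 1 by omega]
    ring
  · refine sum_congr rfl fun η hη => ?_
    have h2 : a ∉ η := fun h => ha (mem_powerset.1 hη h)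
    rw [card_insert_of_notMem ha, card_insert_of_notMem h2,
      show U.card + 1 - (η.card + 1) = U.card - η.card by omega]
    ring

theorem Ex_congr (p : ℝ) {U : Finset α} {F G : Finset α → ℝ} (h : ∀ η ⊆ U, F η = G η) :
    Ex p U F = Ex p U G :=
  sum_congr rfl fun η hη => by rw [h η (mem_powerset.1 hη)]

theorem Ex_mono {p : ℝ} (hp0 : 0 ≤ p) (hp1 : p ≤ 1) {U : Finset α} {F G : Finset α → ℝ}
    (h : ∀ η ⊆ U, F η ≤ G η) : Ex p U F ≤ Ex p U G := by
  refine sum_le_sum fun η hη => ?_
  have : 0 ≤ 1 - p := by linarith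
  exact mul_le_mul_of_nonneg_left (h η (mem_powerset.1 hη)) (by positivity)

theorem Ex_add (p : ℝ) (U : Finset α) (F G : Finset α → ℝ) :
    Ex p U (fun η => F η + G η) = Ex p U F + Ex p U G := by
  unfold Ex
  rw [← sum_add_distrib]
  exact sum_congr rfl fun η _ => by ring

theorem Ex_mul (p : ℝ) (U : Finset α) (c : ℝ) (F : Finset α → ℝ) :
    Ex p U (fun η => c * F η) = c * Ex p U F := by
  unfold Ex
  rw [mul_sum]
  exact sum_congr rfl fun η _ => by ring

theorem Ex_sum {ι : Type*} (p : ℝ) (U : Finset α) (s : Finset ι) (F : ι → Finset α → ℝ) :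
    Ex p U (fun η => ∑ i ∈ s, F i η) = ∑ i ∈ s, Ex p U (F i) := by
  unfold Ex
  rw [sum_comm]
  exact sum_congr rfl fun η _ => by rw [mul_sum]

theorem Ex_const (p : ℝ) (U : Finset α) (c : ℝ) : Ex p U (fun _ => c) = c := by
  induction U using Finset.induction_on with
  | empty => rw [Ex_empty]
  | insert a U ha ih => rw [Ex_insert p ha, ih]; ring

theorem Ex_nonneg {p : ℝ} (hp0 : 0 ≤ p) (hp1 : p ≤ 1) {U : Finset α} {F : Finset α → ℝ}
    (h : ∀ η ⊆ U, 0 ≤ F η) : 0 ≤ Ex p U F := by
  have := Ex_mono hp0 hp1 (U := U) (F := fun _ => 0) h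
  rwa [Ex_const] at this

theorem exists_lt_of_Ex_lt {p : ℝ} (hp0 : 0 ≤ p) (hp1 : p ≤ 1) {U : Finset α}
    {F : Finset α → ℝ} {c : ℝ} (h : Ex p U F < c) : ∃ η ⊆ U, F η < c := by
  by_contra hc
  push Not at hc
  have := Ex_mono hp0 hp1 (U := U) (F := fun _ => c) hc
  rw [Ex_const] at this
  linarith

theorem Ex_card (p : ℝ) (U : Finset α) : Ex p U (fun η => (η.card : ℝ)) = p * U.card := by
  induction U using Finset.induction_on with
  | empty => simp [Ex_empty]
  | insert a U ha ih =>
    rw [Ex_insert p ha, ih, card_insert_of_notMem ha]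
    have : Ex p U (fun η => ((insert a η).card : ℝ)) = Ex p U (fun η => (η.card : ℝ) + 1) :=
      Ex_congr p fun η hη => by
        rw [card_insert_of_notMem (fun h => ha (hη h))]; push_cast; ring
    rw [this, Ex_add, ih, Ex_const]
    push_cast; ring

theorem Ex_prod (p : ℝ) (U : Finset α) (g : α → ℝ) :
    Ex p U (fun η => ∏ v ∈ η, (1 + g v)) = ∏ v ∈ U, (1 + p * g v) := by
  induction U using Finset.induction_on with
  | empty => simp [Ex_empty]
  | insert a U ha ih =>
    rw [Ex_insert p ha, ih, prod_insert ha]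
    have : Ex p U (fun η => ∏ v ∈ insert a η, (1 + g v)) =
        Ex p U (fun η => (1 + g a) * ∏ v ∈ η, (1 + g v)) :=
      Ex_congr p fun η hη => by rw [prod_insert (fun h => ha (hη h))]
    rw [this, Ex_mul, ih]
    ring

theorem Ex_swap (p : ℝ) {U : Finset α} {u : α} (hu : u ∈ U) (F : Finset α → ℝ) :
    p * Ex p U (fun η => if u ∈ η then 0 else F η) =
      (1 - p) * Ex p U (fun η => if u ∈ η then F (η.erase u) else 0) := by
  rw [← insert_erase hu]
  have hn : u ∉ U.erase u := notMem_erase u U
  rw [Ex_insert p hn, Ex_insert p hn]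
  have h1 : Ex p (U.erase u) (fun η => if u ∈ η then 0 else F η) = Ex p (U.erase u) F :=
    Ex_congr p fun η hη => by rw [if_neg (fun h => hn (hη h))]
  have h2 : Ex p (U.erase u) (fun η => if u ∈ insert u η then 0 else F (insert u η)) = 0 := by
    refine Eq.trans ?_ (Ex_const p (U.erase u) 0)
    exact Ex_congr p fun η _ => by rw [if_pos (mem_insert_self u η)]
  have h3 : Ex p (U.erase u) (fun η => if u ∈ η then F (η.erase u) else 0) = 0 := by
    refine Eq.trans ?_ (Ex_const p (U.erase u) 0)
    exact Ex_congr p fun η hη => by rw [if_neg (fun h => hn (hη h))]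
  have h4 : Ex p (U.erase u)
      (fun η => if u ∈ insert u η then F ((insert u η).erase u) else 0) = Ex p (U.erase u) F :=
    Ex_congr p fun η hη => by
      rw [if_pos (mem_insert_self u η), erase_insert (fun h => hn (hη h))]
  rw [h1, h2, h3, h4]
  ring

/-- `F` does not see points satisfying `¬ D`. -/
def Ins (D : α → Prop) (F : Finset α → ℝ) : Prop := ∀ η u, ¬ D u → F (insert u η) = F η

theorem Ex_indep (p : ℝ) (U : Finset α) (D : α → Prop) :
    ∀ F G : Finset α → ℝ, Ins D F → Ins (fun u => ¬ D u) G →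
      Ex p U (fun η => F η * G η) = Ex p U F * Ex p U G := by
  induction U using Finset.induction_on with
  | empty => intro F G _ _; simp [Ex_empty]
  | insert a U ha ih =>
    intro F G hF hG
    have hF' : Ins D (fun η => F (insert a η)) := fun η u hu => by
      simp only []
      rw [Finset.insert_comm, hF _ u hu]
    have hG' : Ins (fun u => ¬ D u) (fun η => G (insert a η)) := fun η u hu => by
      simp only []
      rw [Finset.insert_comm, hG _ u hu]
    rw [Ex_insert p ha, Ex_insert p ha, Ex_insert p ha, ih F G hF hG, ih _ _ hF' hG']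
    by_cases hD : D a
    · have : (fun η => G (insert a η)) = G := funext fun η => hG η a (not_not.2 hD)
      rw [this]; ring
    · have : (fun η => F (insert a η)) = F := funext fun η => hF η a hD
      rw [this]; ring

theorem Ex_sq_le {p : ℝ} (hp0 : 0 ≤ p) (hp1 : p ≤ 1) (U : Finset α) (F G : Finset α → ℝ) :
    (Ex p U (fun η => F η * G η)) ^ 2 ≤
      Ex p U (fun η => F η * F η) * Ex p U (fun η => G η * G η) := by
  unfold Ex
  have : 0 ≤ 1 - p := by linarith
  refine sum_sq_le_sum_mul_sum_of_sq_le_mul _ (fun η _ => ?_) (fun η _ => ?_) (fun η _ => ?_)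
  · have := mul_self_nonneg (F η); positivity
  · have := mul_self_nonneg (G η); positivity
  · exact le_of_eq (by ring)

end Vale.Agent.P230
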