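import Vale.Agent.P230.Cover

/-! Union bound over thin configurations, and the choice of a good window in a covering. -/

namespace Vale.Agent.P230

open Finset MeasureTheory Metric
open scoped RealInnerProductSpace Pointwise

variable {n : ℕ}

theorem card_small_subsets {α : Type*} [DecidableEq α] (s : Finset α) (m : ℕ) :
    (s.powerset.filter fun T => T.card ≤ m).card ≤ (s.card + 1) ^ m := by
  have h1 : (s.powerset.filter fun T => T.card ≤ m) ⊆
      (range (m + 1)).biUnion fun j => s.powersetCard j := by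
    intro T hT
    rw [mem_filter, mem_powerset] at hT
    exact mem_biUnion.2 ⟨T.card, mem_range.2 (by omega), mem_powersetCard.2 ⟨hT.1, rfl⟩⟩
  refine (card_le_card h1).trans (card_biUnion_le.trans ?_)
  rw [add_pow]
  refine sum_le_sum fun j hj => ?_
  rw [card_powersetCard, one_pow, mul_one]
  have h2 : 1 ≤ m.choose j := Nat.choose_pos (by have := mem_range.1 hj; omega)
  calc s.card.choose j ≤ s.card ^ j := Nat.choose_le_pow _ _
    _ = s.card ^ j * 1 := (mul_one _).symm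
    _ ≤ _ := Nat.mul_le_mul_left _ (by exact_mod_cast h2)

theorem exists_good {a h V p W q : ℝ} (m : ℕ) (ha : 0 < a) (hδ : a * n * n ≤ 1 / 2) (hV0 : 0 < V)
    (hp : p * V * 12 = a ^ n) (hp0 : 0 < p) (hp1 : p ≤ 1) (hq0 : 0 ≤ q)
    (hq : (((gb n a 3).card : ℝ) + 1) ^ m * q ≤ 1 / 2)
    (hcov : ∀ T : Finset (Γ n), T.card ≤ m → ∑ x ∈ gb n a 1, ∑ t ∈ T, wt a (x - t) ≤ W →
      Ex p (gb n a 1) (covI (Tx a T) (Cx a h) (gb n a 1)) ≤ q) :
    ∃ ξ ⊆ gb n a 1, ξ.card * V ≤ om n / 2 ∧ ∀ T ⊆ gb n a 3, T.card ≤ m →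
      ∑ x ∈ gb n a 1, ∑ t ∈ T, wt a (x - t) ≤ W →
      ∃ x ∈ gb n a 1, ∀ t ∈ Tx a T x, ¬ Disjoint ξ (Cx a h x t) := by
  classical
  have hom := om_pos n
  set B := gb n a 1 with hB
  set 𝒯 := ((gb n a 3).powerset.filter fun T => T.card ≤ m).filter
    fun T => ∑ x ∈ B, ∑ t ∈ T, wt a (x - t) ≤ W with h𝒯
  have h1 : (𝒯.card : ℝ) ≤ (((gb n a 3).card : ℝ) + 1) ^ m := by
    exact_mod_cast (card_filter_le _ _).trans (card_small_subsets _ m)
  have h2 : ∑ T ∈ 𝒯, Ex p B (covI (Tx a T) (Cx a h) B) ≤ 1 / 2 := by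
    refine (sum_le_card_nsmul _ _ q fun T hT => ?_).trans ?_
    · rw [h𝒯, mem_filter, mem_filter] at hT
      exact hcov T hT.1.2 hT.2
    · rw [nsmul_eq_mul]
      exact (mul_le_mul_of_nonneg_right h1 hq0).trans hq
  have h3 : 2 * V / om n * (p * B.card) < 1 / 2 := by
    have e1 := gb_upper (n := n) (r := 1) ha zero_le_one
    have e2 := pow_le_exp (x := 1 + a * n) (by positivity) n
    have e3 : Real.exp (n * (1 + a * n - 1)) ≤ Real.exp 1 := Real.exp_le_exp.2 (by linarith)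
    have e4 := Real.exp_one_lt_d9
    have e5 : (1 + a * n) ^ n * om n < 3 * om n := mul_lt_mul_of_pos_right (by linarith) hom
    rw [← hp] at e1
    rw [div_mul_eq_mul_div, div_lt_iff₀ hom]
    linarith
  have h4 : Ex p B (fun η => 2 * V / om n * η.card +
      ∑ T ∈ 𝒯, covI (Tx a T) (Cx a h) B η) < 1 := by
    rw [Ex_add, Ex_mul, Ex_card, Ex_sum]
    linarith
  obtain ⟨ξ, hξ, h5⟩ := exists_lt_of_Ex_lt hp0.le hp1 h4
  have h6 : 0 ≤ ∑ T ∈ 𝒯, covI (Tx a T) (Cx a h) B ξ := sum_nonneg fun T _ => covI_nonneg _ _ _ _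
  have h7 : 0 ≤ 2 * V / om n * ξ.card := by positivity
  refine ⟨ξ, hξ, ?_, fun T hT hTm hTW => ?_⟩
  · have : 2 * V / om n * ξ.card ≤ 1 := by linarith
    rw [div_mul_eq_mul_div, div_le_iff₀ hom] at this
    linarith
  · have hT𝒯 : T ∈ 𝒯 := mem_filter.2 ⟨mem_filter.2 ⟨mem_powerset.2 hT, hTm⟩, hTW⟩
    have h8 := single_le_sum (f := fun T => covI (Tx a T) (Cx a h) B ξ)
      (fun T _ => covI_nonneg _ _ _ _) hT𝒯
    by_contra hc
    push Not at hc
    have : covI (Tx a T) (Cx a h) B ξ = 1 := by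
      unfold covI
      rw [if_pos hc]
    simp only [this] at h8
    linarith

theorem select_window {a φ : ℝ} (ha : 0 < a) (hn : 0 < n) (hδ : a * n * n ≤ 1 / 2) (hφ : 0 < φ)
    (Z : Finset (Γ n)) (hZ : Z.Nonempty) (F : Finset (E n))
    (hF : F.card * om n ≤ φ * (a ^ n * Z.card)) :
    ∃ z ∈ Z, ∃ T ⊆ gb n a 3, (T.card : ℝ) ≤ 2 * φ * 4 ^ n ∧
      ∑ x ∈ gb n a 1, ∑ t ∈ T, wt a (x - t) ≤ 24 * φ * (gb n a 1).card ∧
      ∀ τ ∈ F, ‖emb a (qz a τ - z)‖ ≤ 3 → qz a τ - z ∈ T := by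
  classical
  have hom := om_pos n
  have han : 0 < a ^ n := by positivity
  have hn1 : (1 : ℝ) ≤ n := by exact_mod_cast hn
  have hδ0 : 0 ≤ a * n := by positivity
  have hδ1 : a * n ≤ 1 / 2 := by nlinarith
  set B := gb n a 1 with hB
  have hB0 : (0 : ℝ) < B.card := by
    have := gb_one_lower ha hn hδ
    exact (mul_pos_iff_of_pos_right han).1 (lt_of_lt_of_le (by positivity) this)
  set f : Γ n → ℝ := fun z => ((F.filter fun τ => ‖emb a (qz a τ - z)‖ ≤ 3).card : ℝ) with hf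
  set g : Γ n → ℝ := fun z => ∑ x ∈ B, ∑ τ ∈ F, wt a (x - (qz a τ - z)) with hg
  have hf1 : ∑ z ∈ Z, f z ≤ φ * 4 ^ n * Z.card := by
    have e := sum_card_bipartiteAbove_eq_sum_card_bipartiteBelow (s := Z) (t := F)
      (r := fun z τ => ‖emb a (qz a τ - z)‖ ≤ 3)
    have e1 : ∑ τ ∈ F, (Z.bipartiteBelow (fun z τ => ‖emb a (qz a τ - z)‖ ≤ 3) τ).card ≤
        F.card * (gb n a 3).card := by
      refine sum_le_card_nsmul _ _ _ fun τ _ => card_near_le ha _ (qz a τ) fun z hz => ?_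
      rw [emb_sub, norm_sub_rev, ← emb_sub]
      exact (mem_bipartiteBelow _ |>.1 hz).2
    have e2 : ∑ z ∈ Z, f z ≤ F.card * (gb n a 3).card := by
      simp only [hf]
      exact_mod_cast e.le.trans e1
    have e3 := gb_upper (n := n) (r := 3) ha (by norm_num)
    have e4 : (3 + a * n) ^ n ≤ (4 : ℝ) ^ n := pow_le_pow_left₀ (by positivity) (by linarith) n
    refine e2.trans (le_of_mul_le_mul_right ?_ han)
    calc (F.card : ℝ) * (gb n a 3).card * a ^ n = F.card * ((gb n a 3).card * a ^ n) := by ring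
      _ ≤ F.card * (4 ^ n * om n) := mul_le_mul_of_nonneg_left
          (e3.trans (mul_le_mul_of_nonneg_right e4 hom.le)) (by positivity)
      _ = 4 ^ n * (F.card * om n) := by ring
      _ ≤ 4 ^ n * (φ * (a ^ n * Z.card)) := mul_le_mul_of_nonneg_left hF (by positivity)
      _ = _ := by ring
  have hg1 : ∑ z ∈ Z, g z ≤ 12 * φ * B.card * Z.card := by
    have e1 : ∀ x τ, (∑ z ∈ Z, wt a (x - (qz a τ - z))) * a ^ n ≤ 12 * om n := by
      intro x τ
      rw [← sum_image (g := fun z => x - (qz a τ - z)) (f := wt a)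
        (fun z _ z' _ h => sub_right_injective (sub_right_injective h))]
      exact wt_sum ha hn hδ _
    refine le_of_mul_le_mul_right ?_ han
    calc (∑ z ∈ Z, g z) * a ^ n
        = ∑ x ∈ B, ∑ τ ∈ F, (∑ z ∈ Z, wt a (x - (qz a τ - z))) * a ^ n := by
          simp only [hg]
          rw [sum_comm, sum_mul]
          refine sum_congr rfl fun x _ => ?_
          rw [sum_comm, sum_mul]
      _ ≤ ∑ x ∈ B, ∑ τ ∈ F, 12 * om n := sum_le_sum fun x _ => sum_le_sum fun τ _ => e1 x τ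
      _ = 12 * B.card * (F.card * om n) := by
          simp only [sum_const, nsmul_eq_mul]; ring
      _ ≤ 12 * B.card * (φ * (a ^ n * Z.card)) := mul_le_mul_of_nonneg_left hF (by positivity)
      _ = _ := by ring
  have hA : 0 < φ * 4 ^ n := by positivity
  have hA' : 0 < 12 * φ * B.card := by positivity
  have hsum : ∑ z ∈ Z, (f z / (φ * 4 ^ n) + g z / (12 * φ * B.card)) ≤ ∑ _z ∈ Z, (2 : ℝ) := by
    rw [sum_add_distrib, ← sum_div, ← sum_div, sum_const, nsmul_eq_mul]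
    have e1 : (∑ z ∈ Z, f z) / (φ * 4 ^ n) ≤ Z.card := by rw [div_le_iff₀ hA]; linarith
    have e2 : (∑ z ∈ Z, g z) / (12 * φ * B.card) ≤ Z.card := by rw [div_le_iff₀ hA']; linarith
    linarith
  obtain ⟨z, hz, hz2⟩ := exists_le_of_sum_le hZ hsum
  have hf0 : 0 ≤ f z / (φ * 4 ^ n) := by simp only [hf]; positivity
  have hg0 : 0 ≤ g z / (12 * φ * B.card) :=
    div_nonneg (sum_nonneg fun _ _ => sum_nonneg fun _ _ => wt_nonneg _ _) hA'.le
  have hf2 : f z ≤ 2 * (φ * 4 ^ n) := by rw [← div_le_iff₀ hA]; linarith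
  have hg2 : g z ≤ 2 * (12 * φ * B.card) := by rw [← div_le_iff₀ hA']; linarith
  refine ⟨z, hz, (F.filter fun τ => ‖emb a (qz a τ - z)‖ ≤ 3).image fun τ => qz a τ - z,
    fun t ht => ?_, ?_, ?_, fun τ hτ h => mem_image.2 ⟨τ, mem_filter.2 ⟨hτ, h⟩, rfl⟩⟩
  · obtain ⟨τ, hτ, rfl⟩ := mem_image.1 ht
    exact (mem_gb ha).2 (mem_filter.1 hτ).2
  · have : (((F.filter fun τ => ‖emb a (qz a τ - z)‖ ≤ 3).image fun τ => qz a τ - z).card : ℝ)
        ≤ f z := by
      simp only [hf]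
      exact_mod_cast card_image_le
    linarith
  · refine le_trans (sum_le_sum fun x _ => ?_) (hg2.trans (le_of_eq (by ring)))
    refine (sum_image_le_of_nonneg fun _ _ => wt_nonneg _ _).trans ?_
    exact sum_le_sum_of_subset_of_nonneg (filter_subset _ _) fun _ _ _ => wt_nonneg _ _

theorem no_thin_window {a h φ : ℝ} (m : ℕ) (ha : 0 < a) (hn : 0 < n) (hδ : a * n * n ≤ 1 / 2)
    (hφ : 0 < φ) (hm : 2 * φ * 4 ^ n ≤ m) (ξ : Finset (Γ n))
    (hgood : ∀ T ⊆ gb n a 3, T.card ≤ m →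
      ∑ x ∈ gb n a 1, ∑ t ∈ T, wt a (x - t) ≤ 24 * φ * (gb n a 1).card →
      ∃ x ∈ gb n a 1, ∀ t ∈ Tx a T x, ¬ Disjoint ξ (Cx a h x t))
    (X : Set (E n)) (hX : body a (1 - h) ξ + X = Set.univ) (M : ℕ) (F : Finset (E n))
    (hF : ∀ τ ∈ X, (∀ i, |τ i| ≤ a * M + 2) → τ ∈ F) :
    φ * (a ^ n * (2 * M + 1) ^ n) < F.card * om n := by
  classical
  by_contra hc
  have hn1 : (1 : ℝ) ≤ n := by exact_mod_cast hn
  have hδ0 : 0 ≤ a * n := by positivity
  have hδ1 : a * n ≤ 1 / 2 := by nlinarith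
  set Z : Finset (Γ n) := Fintype.piFinset fun _ => Icc (-(M : ℤ)) M with hZ
  have hZc : (Z.card : ℝ) = (2 * M + 1) ^ n := by
    rw [hZ, Fintype.card_piFinset, prod_const, card_univ, Fintype.card_fin, Int.card_Icc,
      show ((M : ℤ) + 1 - -(M : ℤ)).toNat = 2 * M + 1 by omega]
    push_cast; ring
  have hZne : Z.Nonempty := ⟨0, by rw [hZ, Fintype.mem_piFinset]; intro i; simp⟩
  obtain ⟨z, hz, T, hT3, hTc, hTw, hTF⟩ := select_window ha hn hδ hφ Z hZne F
    (by rw [hZc]; exact not_lt.1 hc)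
  obtain ⟨x, hx, hbad⟩ := hgood T hT3 (by exact_mod_cast hTc.trans hm) hTw
  have hmem : emb a (x + z) ∈ body a (1 - h) ξ + X := by rw [hX]; trivial
  obtain ⟨k, hk, τ, hτ, hkτ⟩ := Set.mem_add.1 hmem
  have hx1 := (mem_gb ha).1 hx
  have hτF : τ ∈ F := by
    refine hF τ hτ fun i => ?_
    have e1 : τ i = emb a x i + emb a z i - k i := by
      have := congrArg (fun v : E n => v i) hkτ
      simp only [emb_add, PiLp.add_apply] at this
      linarith
    have e2 : |emb a x i| ≤ 1 := (PiLp.norm_apply_le (emb a x) i).trans hx1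
    have e3 : |k i| ≤ 1 := (PiLp.norm_apply_le k i).trans hk.1
    have e4 : |emb a z i| ≤ a * M := by
      have := Fintype.mem_piFinset.1 hz i
      rw [mem_Icc] at this
      have t1 : -(M : ℝ) ≤ ((z i : ℤ) : ℝ) := by exact_mod_cast this.1
      have t2 : ((z i : ℤ) : ℝ) ≤ (M : ℝ) := by exact_mod_cast this.2
      rw [emb_apply, abs_mul, abs_of_pos ha]
      exact mul_le_mul_of_nonneg_left (abs_le.2 ⟨t1, t2⟩) ha.le
    rw [abs_le] at e2 e3 e4 ⊢
    constructor <;> linarith [e2.1, e2.2, e3.1, e3.2, e4.1, e4.2]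
  have hd := norm_emb_qz ha τ
  have e1 : emb a (x - (qz a τ - z)) = k - (emb a (qz a τ) - τ) := by
    rw [show x - (qz a τ - z) = (x + z) - qz a τ by abel, emb_sub, ← hkτ]; abel
  have e2 : ‖emb a (x - (qz a τ - z))‖ ≤ 1 + a * n := by
    rw [e1]; linarith [norm_sub_le k (emb a (qz a τ) - τ), hk.1]
  have e3 : ‖emb a (qz a τ - z)‖ ≤ 3 := by
    have : emb a (qz a τ - z) = emb a x - emb a (x - (qz a τ - z)) := by
      rw [← emb_sub]; congr 1; abel
    rw [this]; linarith [norm_sub_le (emb a x) (emb a (x - (qz a τ - z)))]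
  have e4 := hbad _ (mem_Tx.2 ⟨hTF τ hτF e3, e2⟩)
  rw [not_disjoint_iff] at e4
  obtain ⟨u, hu, hu2⟩ := e4
  have e5 := (mem_gcap ha).1 hu2
  have e6 := hk.2 u hu
  have e7 := inner_close (emb a u) (emb a (qz a τ)) τ hd e5.1
  rw [e1, real_inner_comm, inner_sub_right, inner_sub_right] at e5
  rw [abs_le] at e7
  linarith [e5.2]

end Vale.Agent.P230
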