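import Vale.Agent.P230.Cap

/-! Depth weights and counting lemmas on the grid. -/

namespace Vale.Agent.P230

open Finset MeasureTheory Metric
open scoped RealInnerProductSpace

variable {n : ℕ}

theorem pow_le_exp {x : ℝ} (hx : 0 ≤ x) (n : ℕ) : x ^ n ≤ Real.exp (n * (x - 1)) := by
  rw [Real.exp_nat_mul]
  exact pow_le_pow_left₀ hx (by linarith [Real.add_one_le_exp (x - 1)]) n

theorem exp_le_pow {g : ℝ} (h0 : 0 ≤ g) (h1 : g ≤ 1 / 2) (n : ℕ) :
    Real.exp (-(n * (2 * g))) ≤ (1 - g) ^ n := by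
  rw [← mul_neg, Real.exp_nat_mul]
  refine pow_le_pow_left₀ (Real.exp_pos _).le ?_ n
  rw [Real.exp_neg, inv_le_comm₀ (Real.exp_pos _) (by linarith)]
  refine le_trans ?_ (Real.add_one_le_exp _)
  rw [inv_eq_one_div, div_le_iff₀ (by linarith)]
  nlinarith

/-- Depth below the sphere of radius `1 + a n`, in units of `1 / n`. -/
noncomputable def kk (a : ℝ) (y : Γ n) : ℕ := ⌊(n : ℝ) * (1 + a * n - ‖emb a y‖)⌋₊

open Classical in
/-- Depth weight. -/
noncomputable def wt (a : ℝ) (y : Γ n) : ℝ :=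
  if ‖emb a y‖ ≤ 1 + a * n then 2 ^ kk a y else 0

theorem wt_nonneg (a : ℝ) (y : Γ n) : 0 ≤ wt a y := by
  unfold wt; split_ifs <;> positivity

theorem layer_le {a : ℝ} (ha : 0 < a) (hn : 0 < n) (hδ : a * n * n ≤ 1 / 2) (j : ℕ) :
    (((gb n a (1 + a * n)).filter fun y => kk a y = j).card : ℝ) * 2 ^ j * a ^ n ≤
      3 * (3 / 4) ^ j * om n := by
  have hom := om_pos n
  have hn' : (0 : ℝ) < n := by exact_mod_cast hn
  set F := (gb n a (1 + a * n)).filter fun y => kk a y = j with hF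
  have hmem : ∀ y ∈ F, ‖emb a y‖ ≤ 1 + a * n - j / n := by
    intro y hy
    rw [hF, mem_filter, mem_gb ha] at hy
    have h1 : (j : ℝ) ≤ n * (1 + a * n - ‖emb a y‖) := by
      rw [← hy.2]
      exact Nat.floor_le (mul_nonneg hn'.le (by linarith [hy.1]))
    have : (j : ℝ) / n ≤ 1 + a * n - ‖emb a y‖ := by rwa [div_le_iff₀ hn', mul_comm]
    linarith
  rcases F.eq_empty_or_nonempty with h | ⟨y, hy⟩
  · rw [h]; simp only [card_empty, Nat.cast_zero, zero_mul]; positivity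
  have hr : 0 ≤ 1 + a * n - j / n := (norm_nonneg _).trans (hmem y hy)
  have h1 : F.card ≤ (gb n a (1 + a * n - j / n)).card :=
    card_le_card fun y hy => (mem_gb ha).2 (hmem y hy)
  have h2 := gb_upper (n := n) ha hr
  have h3 := pow_le_exp (x := 1 + a * n - j / n + a * n) (by positivity) n
  have h4 : (n : ℝ) * (1 + a * n - j / n + a * n - 1) = 2 * (a * n * n) - j := by
    field_simp; ring
  rw [h4] at h3
  have h5 : Real.exp (2 * (a * n * n) - j) ≤ 3 * (3 / 8) ^ j := by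
    have e1 : Real.exp (2 * (a * n * n) - j) ≤ Real.exp 1 * Real.exp (-1) ^ j := by
      rw [← Real.exp_nat_mul, ← Real.exp_add]
      exact Real.exp_le_exp.2 (by linarith)
    have e2 : Real.exp (-1) ≤ 3 / 8 := by
      have := Real.exp_neg_one_lt_d9; linarith
    have e3 := pow_le_pow_left₀ (Real.exp_pos _).le e2 j
    have e4 : Real.exp 1 ≤ 3 := by have := Real.exp_one_lt_d9; linarith
    exact e1.trans (mul_le_mul e4 e3 (by positivity) (by norm_num))
  have h6 : (F.card : ℝ) * a ^ n ≤ 3 * (3 / 8) ^ j * om n := by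
    have : (F.card : ℝ) ≤ (gb n a (1 + a * n - j / n)).card := by exact_mod_cast h1
    calc (F.card : ℝ) * a ^ n ≤ (gb n a (1 + a * n - j / n)).card * a ^ n :=
          mul_le_mul_of_nonneg_right this (by positivity)
      _ ≤ _ := h2.trans (mul_le_mul_of_nonneg_right (h3.trans h5) hom.le)
  have h7 : (3 / 4 : ℝ) ^ j = (3 / 8) ^ j * 2 ^ j := by rw [← mul_pow]; norm_num
  rw [h7]
  have := mul_le_mul_of_nonneg_right h6 (show (0 : ℝ) ≤ 2 ^ j by positivity)
  linarith

theorem wt_sum {a : ℝ} (ha : 0 < a) (hn : 0 < n) (hδ : a * n * n ≤ 1 / 2) (S : Finset (Γ n)) :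
    (∑ y ∈ S, wt a y) * a ^ n ≤ 12 * om n := by
  classical
  have hom := om_pos n
  set B := gb n a (1 + a * n) with hB
  have h1 : ∑ y ∈ S, wt a y ≤ ∑ y ∈ B, (2 : ℝ) ^ kk a y := by
    unfold wt
    rw [← sum_filter]
    exact sum_le_sum_of_subset_of_nonneg (fun y hy => (mem_gb ha).2 (mem_filter.1 hy).2)
      fun _ _ _ => by positivity
  set N := B.sup (kk a) + 1 with hN
  have h2 : ∑ y ∈ B, (2 : ℝ) ^ kk a y =
      ∑ j ∈ range N, ((B.filter fun y => kk a y = j).card : ℝ) * 2 ^ j := by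
    rw [← sum_fiberwise_of_maps_to (t := range N) (g := kk a)
      (fun y hy => mem_range.2 (Nat.lt_succ_of_le (le_sup hy)))]
    refine sum_congr rfl fun j _ => ?_
    rw [sum_congr rfl (g := fun _ => (2 : ℝ) ^ j) fun y hy => by rw [(mem_filter.1 hy).2],
      sum_const, nsmul_eq_mul]
  have h3 : (∑ y ∈ B, (2 : ℝ) ^ kk a y) * a ^ n ≤ ∑ j ∈ range N, 3 * (3 / 4) ^ j * om n := by
    rw [h2, sum_mul]
    exact sum_le_sum fun j _ => layer_le ha hn hδ j
  have h4 : ∑ j ∈ range N, (3 / 4 : ℝ) ^ j ≤ 4 := by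
    have := geom_sum_eq (x := (3 / 4 : ℝ)) (by norm_num) N
    rw [this, div_le_iff_of_neg (by norm_num)]
    have : (0 : ℝ) ≤ (3 / 4) ^ N := by positivity
    linarith
  rw [← sum_mul, ← mul_sum] at h3
  have h5 := mul_le_mul_of_nonneg_right h1 (show 0 ≤ a ^ n by positivity)
  nlinarith

theorem point_est {a h V p K0 : ℝ} (ha : 0 < a) (hn : 0 < n) (hδ : a * n * n ≤ 1 / 2)
    (h0 : 0 < h) (h1 : h ≤ 1 / 12) (hV0 : 0 < V)
    (hV : ∀ e : E n, ‖e‖ = 1 → volume.real (cap e (1 - h)) = V) (hp : p * V * 12 = a ^ n)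
    (hK : 12 * K0 ≤ n * h) {y : Γ n} (hy : ‖emb a y‖ ≤ 1 + a * n) (hk : kk a y + 1 ≤ K0) :
    (gcap a (1 - h + a * n) (emb a y)).Nonempty ∧
      1 + 1 / (p * (gcap a (1 - h + a * n) (emb a y)).card) ≤
        Real.exp (13 / h * (kk a y + 1)) := by
  have hn' : (0 : ℝ) < n := by exact_mod_cast hn
  have hn1 : (1 : ℝ) ≤ n := by exact_mod_cast hn
  set k : ℝ := kk a y + 1 with hkd
  have hk1 : 1 ≤ k := by
    have : (0 : ℝ) ≤ kk a y := Nat.cast_nonneg _
    linarith
  have hδ0 : 0 ≤ a * n := by positivity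
  have hδ1 : a * n ≤ 1 / 2 := by nlinarith
  have hs : 1 - k / n ≤ ‖emb a y‖ := by
    have h2 : (n : ℝ) * (1 + a * n - ‖emb a y‖) < k := Nat.lt_floor_add_one _
    have : 1 + a * n - ‖emb a y‖ < k / n := by rwa [lt_div_iff₀ hn', mul_comm]
    linarith
  have hδs : a * n ≤ k / n := by rw [le_div_iff₀ hn']; linarith
  have hγ1 : 6 * k / (n * h) ≤ 1 / 2 := by
    rw [div_le_iff₀ (by positivity)]; linarith
  have h3 := gcap_lower (γ := 6 * k / (n * h)) ha h0 (by linarith) hV (by linarith) hs hδs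
    (by field_simp) hγ1
  have h4 := exp_le_pow (by positivity) hγ1 n
  have h5 : (n : ℝ) * (2 * (6 * k / (n * h))) = 12 / h * k := by field_simp; norm_num
  rw [h5] at h4
  set c : ℝ := ((gcap a (1 - h + a * n) (emb a y)).card : ℝ) with hc
  have hp0 : 0 < p := by
    have : 0 < p * V * 12 := by rw [hp]; positivity
    by_contra hc
    push Not at hc
    nlinarith
  have h6 : Real.exp (-(12 / h * k)) ≤ 12 * (p * c) := by
    have := (mul_le_mul_of_nonneg_right h4 hV0.le).trans h3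
    rw [← hp] at this
    exact le_of_mul_le_mul_right (by linarith) hV0
  have hpc : 0 < p * c := by linarith [Real.exp_pos (-(12 / h * k))]
  have hc0 : 0 < c := (mul_pos_iff_of_pos_left hp0).1 hpc
  refine ⟨card_pos.1 (by rw [hc] at hc0; exact_mod_cast hc0), ?_⟩
  have h7 : 1 / (p * c) ≤ 12 * Real.exp (12 / h * k) := by
    rw [div_le_iff₀ hpc]
    have := mul_le_mul_of_nonneg_left h6 (Real.exp_pos (12 / h * k)).le
    rw [← Real.exp_add, add_neg_cancel, Real.exp_zero] at this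
    linarith
  have h8 : 1 ≤ Real.exp (12 / h * k) := Real.one_le_exp (by positivity)
  have h9 : 13 ≤ Real.exp (1 / h * k) := by
    have e1 : 12 ≤ 1 / h := by rw [le_div_iff₀ h0]; linarith
    have := Real.add_one_le_exp (1 / h * k)
    nlinarith
  have h10 : Real.exp (13 / h * k) = Real.exp (1 / h * k) * Real.exp (12 / h * k) := by
    rw [← Real.exp_add]; congr 1; ring
  rw [h10]
  nlinarith

/-- `y` is close to `c` shifted by a difference of two points of `T`. -/
def nearP (a : ℝ) (T : Finset (Γ n)) (r : ℝ) (c y : Γ n) : Prop :=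
  ∃ t ∈ T, ∃ t' ∈ T, ‖emb a (y - (c - t + t'))‖ ≤ r

theorem card_nearP {a : ℝ} (ha : 0 < a) (T S : Finset (Γ n)) (r : ℝ) (c : Γ n)
    [DecidablePred (nearP a T r c)] :
    (S.filter (nearP a T r c)).card ≤ T.card ^ 2 * (gb n a r).card := by
  classical
  have h1 : S.filter (nearP a T r c) ⊆
      (T ×ˢ T).biUnion fun q => S.filter fun y => ‖emb a (y - (c - q.1 + q.2))‖ ≤ r := by
    intro y hy
    obtain ⟨hS, t, ht, t', ht', h⟩ := mem_filter.1 hy
    exact mem_biUnion.2 ⟨(t, t'), mem_product.2 ⟨ht, ht'⟩, mem_filter.2 ⟨hS, h⟩⟩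
  refine (card_le_card h1).trans (card_biUnion_le.trans ?_)
  refine (sum_le_card_nsmul _ _ (gb n a r).card fun q _ => ?_).trans ?_
  · exact card_near_le ha _ _ fun x hx => (mem_filter.1 hx).2
  · rw [card_product, smul_eq_mul, sq]

theorem exists_dense {a r : ℝ} (ha : 0 < a) (hr : r ≤ 1) (R : Finset (Γ n))
    (hR : R ⊆ gb n a 1) : ∃ z : Γ n, ∃ G ⊆ R, (∀ x ∈ G, ‖emb a (x - z)‖ ≤ r) ∧
      R.card * (gb n a r).card ≤ G.card * (gb n a 2).card := by
  classical
  have h1 : ∑ _z ∈ gb n a 2, R.card * (gb n a r).card ≤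
      ∑ z ∈ gb n a 2, (R.filter fun x => ‖emb a (x - z)‖ ≤ r).card * (gb n a 2).card := by
    rw [sum_const, smul_eq_mul, mul_comm, ← sum_mul]
    refine Nat.mul_le_mul_right _ ?_
    have e := sum_card_bipartiteAbove_eq_sum_card_bipartiteBelow (s := gb n a 2) (t := R)
      (r := fun z x => ‖emb a (x - z)‖ ≤ r)
    refine le_trans ?_ e.ge
    refine le_trans (le_of_eq (smul_eq_mul _ _).symm) (card_nsmul_le_sum _ _ _ fun x hx => ?_)
    refine card_le_card_of_injOn (fun g => x - g) (fun g hg => ?_) fun g _ g' _ h => ?_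
    · have h2 := (mem_gb ha).1 (mem_coe.1 hg)
      have h3 := (mem_gb ha).1 (hR hx)
      rw [mem_coe, mem_bipartiteBelow, mem_gb ha]
      refine ⟨?_, by simpa using h2⟩
      simp only []
      rw [emb_sub]
      linarith [norm_sub_le (emb a x) (emb a g)]
    · exact sub_right_injective h
  obtain ⟨z, _, hz⟩ := exists_le_of_sum_le ⟨0, (mem_gb ha).2 (by simp [emb_zero])⟩ h1
  exact ⟨z, _, filter_subset _ _, fun x hx => (mem_filter.1 hx).2, hz⟩

end Vale.Agent.P230
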